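import Vale.Agent.Lib.P235.Main
import Vale.Agent.Lib.P235.LocP

/-!
# P235: adding one apex vertex (the graph may be disconnected)
-/

namespace Vale.Agent.Lib.P235

open SimpleGraph Finset

variable {V : Type*}

/-- a pair separated by the removal of `v` -/
theorem apex_sep {G : SimpleGraph V} {w : Sym2 V → ℝ} (hw : ∀ e ∈ G.edgeSet, 0 < w e) {v x y : V}
    (hxy : G.Reachable x y) (hy : G.Reachable y v) (h : ¬ (keep G {v}ᶜ).Reachable x y) :
    wd G w x v + wd G w y v ≤ wd G w x y := by
  have : Nonempty (G.Walk x y) := hxy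
  apply le_ciInf
  intro p
  by_cases hp : v ∈ p.support
  · have h1 := wd_add_wd_le hw p hp
    rw [wd_comm hw hy]
    exact h1
  · exfalso
    obtain ⟨q, _⟩ := exists_walk_keep (w := w) (S := {v}ᶜ) p (by
      intro z hz hzv
      rw [Set.mem_singleton_iff] at hzv
      exact hp (hzv ▸ hz))
    exact h q.reachable

/-- a pair closer to each other than to `v` -/
theorem apex_near {G : SimpleGraph V} {w : Sym2 V → ℝ} (hw : ∀ e ∈ G.edgeSet, 0 < w e) {v x y : V}
    (hxy : G.Reachable x y) (hy : G.Reachable y v)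
    (h : wd G w x y < wd G w x v + wd G w y v) :
    (keep G {v}ᶜ).Reachable x y ∧ wd (keep G {v}ᶜ) w x y ≤ wd G w x y := by
  have hr : (keep G {v}ᶜ).Reachable x y := by
    by_contra hcon
    exact absurd (apex_sep hw hxy hy hcon) (not_le.mpr h)
  refine ⟨hr, ?_⟩
  by_contra hcon
  push Not at hcon
  obtain ⟨p, hp⟩ := exists_walk_lt (w := w) hxy (lt_min hcon h)
  have hp1 := lt_of_lt_of_le hp (min_le_left _ _)
  have hp2 := lt_of_lt_of_le hp (min_le_right _ _)
  have hv : v ∉ p.support := by
    intro hv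
    have h1 := wd_add_wd_le hw p hv
    rw [wd_comm hw hy] at hp2
    linarith
  obtain ⟨q, hq⟩ := exists_walk_keep (w := w) (S := {v}ᶜ) p (by
    intro z hz hzv
    rw [Set.mem_singleton_iff] at hzv
    exact hv (hzv ▸ hz))
  have := wd_le (keep_edge hw _) q
  linarith

/-- away from the component of `v` nothing changes -/
theorem apex_far {G : SimpleGraph V} {w : Sym2 V → ℝ} (hw : ∀ e ∈ G.edgeSet, 0 < w e) {v x y : V}
    (hxy : G.Reachable x y) (hx : ¬ G.Reachable x v) :
    (keep G {v}ᶜ).Reachable x y ∧ wd (keep G {v}ᶜ) w x y = wd G w x y := by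
  have key : ∀ p : G.Walk x y, ∃ q : (keep G {v}ᶜ).Walk x y, len w q = len w p := by
    intro p
    apply exists_walk_keep
    intro z hz hzv
    rw [Set.mem_singleton_iff] at hzv
    subst hzv
    classical
    exact hx (p.takeUntil _ hz).reachable
  obtain ⟨p⟩ := id hxy
  obtain ⟨q, _⟩ := key p
  have hr := q.reachable
  refine ⟨hr, le_antisymm ?_ (wd_le_wd_keep hw hr)⟩
  have : Nonempty (G.Walk x y) := hxy
  apply le_ciInf
  intro p
  obtain ⟨q, hq⟩ := key p
  rw [← hq]
  exact wd_le (keep_edge hw _) q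

/-- **One apex vertex**: `c_1(G) ≤ 600 c_1(G - v)`. -/
theorem apex_bound [Fintype V] (G : SimpleGraph V) (v : V) {K : ℝ} (hK : 1 ≤ K)
    (hL : L1Bound (keep G {v}ᶜ) K) : L1Bound G (600 * K) := by
  classical
  intro w hw
  obtain ⟨N, f, hf⟩ := hL w (keep_edge hw _)
  obtain ⟨I, _, g, c, hg, hcut⟩ := exists_cuts f
  set ρ : V → ℝ := fun x => wd G w x v with hρ
  have hρ0 : ∀ x, 0 ≤ ρ x := fun x => wd_nonneg hw x v
  obtain ⟨J, _, L, L1, L2⟩ := exists_loc' g hg c ρ hρ0 (K := K) (by linarith)
  obtain ⟨N', κ, hκ⟩ := exists_kappa (keep G {v}ᶜ) (fun x => if G.Reachable x v then ρ x else 0)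
    (fun x => by split_ifs; exacts [hρ0 x, le_rfl])
  -- the map
  let Φ : V → (Fin N' ⊕ J) ⊕ Fin N → ℝ := fun x =>
    Sum.elim (Sum.elim (κ x) (fun j => if G.Reachable x v then L x j else 0))
      (fun i => if G.Reachable x v then 0 else f x i)
  have hΦ : ∀ x y, ∑ i, |Φ x i - Φ y i| = (∑ i, |κ x i - κ y i| +
      ∑ j, |(if G.Reachable x v then L x j else 0) - (if G.Reachable y v then L y j else 0)|) +
      ∑ i, |(if G.Reachable x v then 0 else f x i) - (if G.Reachable y v then 0 else f y i)| := by
    intro x y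
    rw [Fintype.sum_sum_type, Fintype.sum_sum_type]
    rfl
  have main : ∀ x y, G.Reachable x y → wd G w x y / 34 ≤ ∑ i, |Φ x i - Φ y i| ∧
      ∑ i, |Φ x i - Φ y i| ≤ (7 + 21 / 2 * K) * wd G w x y := by
    intro x y hxy
    have hd0 := wd_nonneg hw x y
    rw [hΦ]
    by_cases hx : G.Reachable x v
    · have hy : G.Reachable y v := hxy.symm.trans hx
      simp only [if_pos hx, if_pos hy, sub_self, abs_zero, Finset.sum_const_zero, add_zero]
      have hκxy := hκ x y
      simp only [if_pos hx, if_pos hy] at hκxy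
      have htri : wd G w x y ≤ ρ x + ρ y := by
        have := wd_triangle hw hx hy.symm
        rw [wd_comm hw hy.symm] at this
        exact this
      have hlip : |ρ x - ρ y| ≤ wd G w x y := by
        have h1 := wd_triangle hw hxy hy
        have h2 := wd_triangle hw hxy.symm hx
        rw [wd_comm hw hxy.symm] at h2
        rw [abs_le]
        constructor
        · simp only [hρ]; linarith
        · simp only [hρ]; linarith
      have hLup := L1 x y (wd G w x y) hlip (by
        intro hlt
        obtain ⟨hr, hle⟩ := apex_near hw hxy hy hlt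
        rw [← hcut]
        exact (hf x y hr).2.trans (mul_le_mul_of_nonneg_left hle (by linarith)))
      have hP : 0 ≤ ∑ i, |κ x i - κ y i| := Finset.sum_nonneg fun _ _ => abs_nonneg _
      have hQ : 0 ≤ ∑ j, |L x j - L y j| := Finset.sum_nonneg fun _ _ => abs_nonneg _
      constructor
      · rcases hd0.eq_or_lt with h0 | hdpos
        · rw [← h0]; linarith
        by_cases hr : (keep G {v}ᶜ).Reachable x y
        · have hcutd : wd G w x y ≤ cutd g c x y := by
            rw [← hcut]
            exact (wd_le_wd_keep hw hr).trans (hf x y hr).1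
          rcases le_total (wd G w x y / 4) (ρ x) with hx4 | hx4
          · have := L2 x y (wd G w x y) hdpos hx4 hcutd
            linarith
          · have hy4 : wd G w x y / 4 ≤ ρ y := by linarith
            have h3 := L2 y x (wd G w x y) hdpos hy4 (by rw [cutd_comm]; exact hcutd)
            have h4 : ∑ j, |L y j - L x j| = ∑ j, |L x j - L y j| :=
              Finset.sum_congr rfl fun j _ => abs_sub_comm _ _
            rw [h4] at h3
            linarith
        · rw [hκxy.2 hr]
          linarith
      · have hκle : ∑ i, |κ x i - κ y i| ≤ wd G w x y := by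
          by_cases hr : (keep G {v}ᶜ).Reachable x y
          · rw [hκxy.1 hr]; exact hlip
          · rw [hκxy.2 hr]; exact apex_sep hw hxy hy hr
        linarith
    · have hy : ¬ G.Reachable y v := fun h => hx (hxy.trans h)
      obtain ⟨hr, heq⟩ := apex_far hw hxy hx
      have hκxy := (hκ x y).1 hr
      simp only [if_neg hx, if_neg hy] at hκxy ⊢
      rw [hκxy]
      obtain ⟨h1, h2⟩ := hf x y hr
      rw [heq] at h1 h2
      simp only [sub_self, abs_zero, Finset.sum_const_zero, add_zero, zero_add]
      constructor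
      · linarith
      · have : 0 ≤ K * wd G w x y := by positivity
        linarith
  let e := Fintype.equivFin ((Fin N' ⊕ J) ⊕ Fin N)
  refine ⟨Fintype.card ((Fin N' ⊕ J) ⊕ Fin N), fun x i => 34 * Φ x (e.symm i), ?_⟩
  intro x y hxy
  have hsum : ∑ i, |34 * Φ x (e.symm i) - 34 * Φ y (e.symm i)| = 34 * ∑ i, |Φ x i - Φ y i| := by
    rw [Equiv.sum_comp e.symm (fun i => |34 * Φ x i - 34 * Φ y i|), Finset.mul_sum]
    apply Finset.sum_congr rfl
    intro i _
    rw [← mul_sub, abs_mul]
    norm_num
  rw [hsum]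
  obtain ⟨h1, h2⟩ := main x y hxy
  have hd0 := wd_nonneg hw x y
  constructor
  · linarith
  · have h3 : 34 * ((7 + 21 / 2 * K) * wd G w x y) ≤ 600 * K * wd G w x y := by
      have : 34 * (7 + 21 / 2 * K) ≤ 600 * K := by nlinarith
      calc 34 * ((7 + 21 / 2 * K) * wd G w x y) = (34 * (7 + 21 / 2 * K)) * wd G w x y := by ring
        _ ≤ _ := mul_le_mul_of_nonneg_right this hd0
    linarith

end Vale.Agent.Lib.P235
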