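import Mathlib

/-!
# P235: cut representation of `ℓ_1` maps and random parity cuts
-/

namespace Vale.Agent.Lib.P235

open Finset

/-- indicator of a proposition as a real number -/
noncomputable def ind (P : Prop) : ℝ := by
  classical
  exact if P then 1 else 0

theorem ind_true {P : Prop} (h : P) : ind P = 1 := by
  classical
  unfold ind; exact if_pos h

theorem ind_false {P : Prop} (h : ¬ P) : ind P = 0 := by
  classical
  unfold ind; exact if_neg h

theorem ind_nonneg (P : Prop) : 0 ≤ ind P := by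
  by_cases h : P
  · rw [ind_true h]; norm_num
  · rw [ind_false h]

theorem ind_le_one (P : Prop) : ind P ≤ 1 := by
  by_cases h : P
  · rw [ind_true h]
  · rw [ind_false h]; norm_num

/-- the distance on a finite set of reals is a sum of threshold cuts -/
theorem exists_gap (Z : Finset ℝ) : ∃ g : ℝ → ℝ, (∀ z, 0 ≤ g z) ∧
    ∀ a ∈ Z, ∀ b ∈ Z, |a - b| = ∑ z ∈ Z, g z * |ind (z ≤ a) - ind (z ≤ b)| := by
  induction Z using Finset.induction_on_max with
  | empty => exact ⟨fun _ => 0, fun _ => le_rfl, by simp⟩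
  | insert m Z hm ih =>
    obtain ⟨g, hg, h⟩ := ih
    have hmZ : m ∉ Z := fun hmem => lt_irrefl _ (hm m hmem)
    rcases Z.eq_empty_or_nonempty with rfl | hne
    · exact ⟨fun _ => 0, fun _ => le_rfl, by simp⟩
    set M := Z.max' hne with hM
    have hMZ : M ∈ Z := Z.max'_mem hne
    have hMm : M < m := hm M hMZ
    refine ⟨fun z => if z = m then m - M else g z, ?_, ?_⟩
    · intro z
      dsimp only
      split_ifs
      · linarith
      · exact hg z
    have hsum : ∀ a b : ℝ, ∑ z ∈ insert m Z, (if z = m then m - M else g z) *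
        |ind (z ≤ a) - ind (z ≤ b)| = (m - M) * |ind (m ≤ a) - ind (m ≤ b)| +
          ∑ z ∈ Z, g z * |ind (z ≤ a) - ind (z ≤ b)| := by
      intro a b
      rw [Finset.sum_insert hmZ, if_pos rfl]
      congr 1
      apply Finset.sum_congr rfl
      intro z hz
      rw [if_neg (show ¬ z = m from fun hzm => hmZ (hzm ▸ hz))]
    have hlow : ∀ b ∈ Z, ind (m ≤ b) = 0 := fun b hb => ind_false (not_le.mpr (hm b hb))
    have key : ∀ b ∈ Z, |m - b| = (m - M) * |ind (m ≤ m) - ind (m ≤ b)| +
          ∑ z ∈ Z, g z * |ind (z ≤ m) - ind (z ≤ b)| := by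
      intro b hb
      rw [hlow b hb, ind_true le_rfl]
      have h1 : ∑ z ∈ Z, g z * |ind (z ≤ m) - ind (z ≤ b)| =
          ∑ z ∈ Z, g z * |ind (z ≤ M) - ind (z ≤ b)| := by
        apply Finset.sum_congr rfl
        intro z hz
        rw [ind_true (hm z hz).le, ind_true (Z.le_max' z hz)]
      rw [h1, ← h M hMZ b hb]
      have h2 : b ≤ M := Z.le_max' b hb
      have h3 : b < m := hm b hb
      rw [abs_of_pos (by linarith : 0 < m - b), abs_of_nonneg (by linarith : 0 ≤ M - b)]
      norm_num
    intro a ha b hb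
    dsimp only
    rw [hsum]
    rw [Finset.mem_insert] at ha hb
    rcases ha with ha | ha <;> rcases hb with hb | hb
    · rw [ha, hb]; simp
    · rw [ha]; exact key b hb
    · have := key a ha
      rw [hb]
      rw [abs_sub_comm] at this
      rw [this, abs_sub_comm (ind (m ≤ m)) (ind (m ≤ a))]
      congr 1
      apply Finset.sum_congr rfl
      intro z _
      rw [abs_sub_comm]
    · rw [hlow a ha, hlow b hb, ← h a ha b hb]
      simp

variable {V : Type*}

/-- the cut metric of a finite family of weighted cuts -/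
noncomputable def cutd {I : Type*} [Fintype I] (g : I → ℝ) (c : I → V → Prop) (x y : V) : ℝ :=
  ∑ i, g i * |ind (c i x) - ind (c i y)|

theorem cutd_nonneg {I : Type*} [Fintype I] {g : I → ℝ} (hg : ∀ i, 0 ≤ g i) (c : I → V → Prop)
    (x y : V) : 0 ≤ cutd g c x y :=
  Finset.sum_nonneg fun i _ => mul_nonneg (hg i) (abs_nonneg _)

/-- every `ℓ_1` map of a finite set is given by weighted cuts -/
theorem exists_cuts [Fintype V] {N : ℕ} (f : V → Fin N → ℝ) :
    ∃ (I : Type) (_ : Fintype I) (g : I → ℝ) (c : I → V → Prop), (∀ i, 0 ≤ g i) ∧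
      ∀ x y, ∑ i, |f x i - f y i| = cutd g c x y := by
  classical
  set Z : Finset ℝ := Finset.univ.image (fun q : V × Fin N => f q.1 q.2) with hZ
  obtain ⟨g, hg, h⟩ := exists_gap Z
  refine ⟨Fin N × Z, inferInstance, fun q => g q.2, fun q x => (q.2 : ℝ) ≤ f x q.1,
    fun q => hg _, ?_⟩
  intro x y
  unfold cutd
  rw [Fintype.sum_prod_type]
  apply Finset.sum_congr rfl
  intro i _
  have hx : f x i ∈ Z := Finset.mem_image.mpr ⟨(x, i), Finset.mem_univ _, rfl⟩
  have hy : f y i ∈ Z := Finset.mem_image.mpr ⟨(y, i), Finset.mem_univ _, rfl⟩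
  rw [h _ hx _ hy]
  exact (Finset.sum_coe_sort Z (fun z => g z * |ind (z ≤ f x i) - ind (z ≤ f y i)|)).symm

/-! ### Random parity cuts -/

section Parity

variable {I : Type*} [Fintype I] [DecidableEq I]

/-- the probability of a set of cuts -/
noncomputable def pr (p : I → ℝ) (B : I → Bool) : ℝ := ∏ i, (if B i then p i else 1 - p i)

/-- the parity sign -/
noncomputable def sgn (c : I → V → Prop) (B : I → Bool) (x : V) : ℝ :=
  ∏ i, (if B i then 1 - 2 * ind (c i x) else 1)

theorem sum_bool (F : I → Bool → ℝ) : ∑ B : I → Bool, ∏ i, F i (B i) = ∏ i, (F i true + F i false) := by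
  classical
  have h : ∀ i, F i true + F i false = ∑ b : Bool, F i b := by
    intro i; simp
  simp only [h]
  rw [Finset.prod_univ_sum]
  simp only [Fintype.piFinset_univ]

theorem sum_pr (p : I → ℝ) : ∑ B : I → Bool, pr p B = 1 := by
  unfold pr
  rw [sum_bool (fun i b => if b then p i else 1 - p i)]
  simp

theorem pr_nonneg {p : I → ℝ} (hp : ∀ i, 0 ≤ p i) (hp1 : ∀ i, p i ≤ 1) (B : I → Bool) :
    0 ≤ pr p B := by
  apply Finset.prod_nonneg
  intro i _
  split_ifs
  · exact hp i
  · linarith [hp1 i]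

theorem sgn_sq (c : I → V → Prop) (B : I → Bool) (x : V) : sgn c B x = 1 ∨ sgn c B x = -1 := by
  classical
  unfold sgn
  apply Finset.prod_induction _ (fun t : ℝ => t = 1 ∨ t = -1)
  · rintro a b (rfl | rfl) (rfl | rfl) <;> norm_num
  · left; rfl
  · intro i _
    split_ifs
    · by_cases h : c i x
      · right; rw [ind_true h]; norm_num
      · left; rw [ind_false h]; norm_num
    · left; rfl

theorem ind_mul (P Q : Prop) : (1 - 2 * ind P) * (1 - 2 * ind Q) = 1 - 2 * |ind P - ind Q| := by
  by_cases hP : P <;> by_cases hQ : Q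
  · rw [ind_true hP, ind_true hQ]; norm_num
  · rw [ind_true hP, ind_false hQ]; norm_num
  · rw [ind_false hP, ind_true hQ]; norm_num
  · rw [ind_false hP, ind_false hQ]; norm_num

theorem sum_sgn (p : I → ℝ) (c : I → V → Prop) (x y : V) :
    ∑ B : I → Bool, pr p B * (sgn c B x * sgn c B y) =
      ∏ i, (1 - 2 * p i * |ind (c i x) - ind (c i y)|) := by
  have h : ∀ B : I → Bool, pr p B * (sgn c B x * sgn c B y) =
      ∏ i, (if B i then p i * (1 - 2 * |ind (c i x) - ind (c i y)|) else 1 - p i) := by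
    intro B
    unfold pr sgn
    rw [← Finset.prod_mul_distrib, ← Finset.prod_mul_distrib]
    apply Finset.prod_congr rfl
    intro i _
    rw [← ind_mul]
    split_ifs <;> ring
  rw [Finset.sum_congr rfl fun B _ => h B,
    sum_bool (fun i b => if b then p i * (1 - 2 * |ind (c i x) - ind (c i y)|) else 1 - p i)]
  apply Finset.prod_congr rfl
  intro i _
  simp
  ring

/-- the parity probability at scale `s` -/
noncomputable def pp (g : I → ℝ) (s : ℝ) (i : I) : ℝ := (1 - Real.exp (-(2 * g i / s))) / 2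

theorem pp_nonneg {g : I → ℝ} (hg : ∀ i, 0 ≤ g i) {s : ℝ} (hs : 0 < s) (i : I) : 0 ≤ pp g s i := by
  unfold pp
  have h1 : 0 ≤ 2 * g i / s := div_nonneg (by linarith [hg i]) hs.le
  have : Real.exp (-(2 * g i / s)) ≤ 1 := Real.exp_le_one_iff.mpr (by linarith)
  linarith

theorem pp_le_one (g : I → ℝ) (s : ℝ) (i : I) : pp g s i ≤ 1 := by
  unfold pp
  have := Real.exp_pos (-(2 * g i / s))
  linarith

theorem prod_pp (g : I → ℝ) (c : I → V → Prop) (s : ℝ) (x y : V) :
    ∏ i, (1 - 2 * pp g s i * |ind (c i x) - ind (c i y)|) =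
      Real.exp (-(2 * cutd g c x y / s)) := by
  have h : ∀ i, 1 - 2 * pp g s i * |ind (c i x) - ind (c i y)| =
      Real.exp (-(2 * (g i * |ind (c i x) - ind (c i y)|) / s)) := by
    intro i
    unfold pp
    have : |ind (c i x) - ind (c i y)| = 0 ∨ |ind (c i x) - ind (c i y)| = 1 := by
      by_cases hP : c i x <;> by_cases hQ : c i y
      · left; rw [ind_true hP, ind_true hQ]; norm_num
      · right; rw [ind_true hP, ind_false hQ]; norm_num
      · right; rw [ind_false hP, ind_true hQ]; norm_num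
      · left; rw [ind_false hP, ind_false hQ]; norm_num
    rcases this with h0 | h1
    · rw [h0]; simp
    · rw [h1]; ring_nf
  rw [Finset.prod_congr rfl fun i _ => h i, ← Real.exp_sum]
  congr 1
  unfold cutd
  rw [Finset.sum_neg_distrib, ← Finset.sum_div, ← Finset.mul_sum]

/-- the `L_1` distance of two scaled signs, averaged over the parity cuts -/
theorem sum_abs_sgn {g : I → ℝ} (hg : ∀ i, 0 ≤ g i) (c : I → V → Prop) {s : ℝ} (hs : 0 < s)
    (x y : V) {a b : ℝ} (ha : 0 ≤ a) (hb : 0 ≤ b) :
    ∑ B : I → Bool, |pr (pp g s) B * (a * sgn c B x) - pr (pp g s) B * (b * sgn c B y)| =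
      |a - b| * ((1 + Real.exp (-(2 * cutd g c x y / s))) / 2) +
        (a + b) * ((1 - Real.exp (-(2 * cutd g c x y / s))) / 2) := by
  have h : ∀ B : I → Bool,
      |pr (pp g s) B * (a * sgn c B x) - pr (pp g s) B * (b * sgn c B y)| =
      (|a - b| / 2 + (a + b) / 2) * pr (pp g s) B +
        (|a - b| / 2 - (a + b) / 2) * (pr (pp g s) B * (sgn c B x * sgn c B y)) := by
    intro B
    have hpr := pr_nonneg (pp_nonneg hg hs) (pp_le_one g s) B
    rw [← mul_sub, abs_mul, abs_of_nonneg hpr]
    rcases sgn_sq c B x with hx | hx <;> rcases sgn_sq c B y with hy | hy <;> rw [hx, hy]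
    · ring_nf
    · rw [show a * 1 - b * -1 = a + b by ring, abs_of_nonneg (by linarith)]; ring
    · rw [show a * -1 - b * 1 = -(a + b) by ring, abs_neg, abs_of_nonneg (by linarith)]; ring
    · rw [show a * -1 - b * -1 = -(a - b) by ring, abs_neg]; ring
  rw [Finset.sum_congr rfl fun B _ => h B, Finset.sum_add_distrib, ← Finset.mul_sum,
    ← Finset.mul_sum, sum_pr, sum_sgn, prod_pp]
  ring

end Parity

end Vale.Agent.Lib.P235
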