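import Mathlib

/-!
# P235: weighted graph metrics, their distortion in `L_1`, and elimination rounds
-/

namespace Vale.Agent.Lib.P235

/-- The graph obtained from `G` by keeping only the edges between vertices of `S`: it is the induced
subgraph `G[S]` together with the vertices outside `S` as isolated vertices. -/
def keep {V : Type*} (G : SimpleGraph V) (S : Set V) : SimpleGraph V where
  Adj a b := G.Adj a b ∧ a ∈ S ∧ b ∈ S
  symm := ⟨fun _ _ h => ⟨h.1.symm, h.2.2, h.2.1⟩⟩
  loopless := ⟨fun a h => G.loopless.irrefl a h.1⟩

/-- The length of a walk, for the edge lengths `w`. -/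
noncomputable def len {V : Type*} {G : SimpleGraph V} (w : Sym2 V → ℝ) {x y : V}
    (p : G.Walk x y) : ℝ :=
  (p.edges.map w).sum

/-- The shortest-path distance (the infimum of the lengths of the walks), used for vertices of the
same component. -/
noncomputable def wd {V : Type*} (G : SimpleGraph V) (w : Sym2 V → ℝ) (x y : V) : ℝ :=
  ⨅ p : G.Walk x y, len w p

/-- `L1Bound G C`: for all positive edge lengths the shortest-path metric of every component of `G`
embeds into `ℓ_1^N` (for some `N`) with distortion at most `C`. -/
def L1Bound {V : Type*} (G : SimpleGraph V) (C : ℝ) : Prop :=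
  ∀ w : Sym2 V → ℝ, (∀ e ∈ G.edgeSet, 0 < w e) →
    ∃ (N : ℕ) (f : V → Fin N → ℝ), ∀ x y : V, G.Reachable x y →
      wd G w x y ≤ ∑ i, |f x i - f y i| ∧ ∑ i, |f x i - f y i| ≤ C * wd G w x y

/-- `Elim G k S`: the vertex set `S` is what remains of `G` after `k` rounds, where a round deletes
at most one vertex from every connected component of the remaining graph. -/
inductive Elim {V : Type*} (G : SimpleGraph V) : ℕ → Set V → Prop
  | start : Elim G 0 Set.univ
  | round {k : ℕ} {S : Set V} (h : Elim G k S) (T : Set V) (hT : T ⊆ S)
      (hone : ∀ a ∈ T, ∀ b ∈ T, (keep G S).Reachable a b → a = b) : Elim G (k + 1) (S \ T)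

end Vale.Agent.Lib.P235
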