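import Vale.Agent.Lib.P235.Graph
import Vale.Agent.Lib.P235.Cuts

/-!
# P235: shortest-path metrics of forests embed isometrically into `ℓ_1^N`
-/

namespace Vale.Agent.Lib.P235

open SimpleGraph Finset

variable {V : Type*}

theorem cutd_triangle {I : Type*} [Fintype I] {g : I → ℝ} (hg : ∀ i, 0 ≤ g i) (c : I → V → Prop)
    (x y z : V) : cutd g c x z ≤ cutd g c x y + cutd g c y z := by
  unfold cutd
  rw [← Finset.sum_add_distrib]
  apply Finset.sum_le_sum
  intro i _
  rw [← mul_add]
  exact mul_le_mul_of_nonneg_left (abs_sub_le _ _ _) (hg i)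

theorem cutd_comm {I : Type*} [Fintype I] (g : I → ℝ) (c : I → V → Prop)
    (x y : V) : cutd g c x y = cutd g c y x := by
  unfold cutd
  apply Finset.sum_congr rfl
  intro i _
  rw [abs_sub_comm]

theorem cutd_self {I : Type*} [Fintype I] (g : I → ℝ) (c : I → V → Prop)
    (x : V) : cutd g c x x = 0 := by
  unfold cutd
  simp

/-- the two ends of a trail are on the two sides of each of its edges -/
theorem trail_sides (H : SimpleGraph V) {a b : V} : ∀ {x y : V} (p : H.Walk x y), p.IsTrail →
    s(a, b) ∈ p.edges →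
    ((H.deleteEdges {s(a, b)}).Reachable x a ∧ (H.deleteEdges {s(a, b)}).Reachable b y) ∨
    ((H.deleteEdges {s(a, b)}).Reachable x b ∧ (H.deleteEdges {s(a, b)}).Reachable a y) := by
  intro x y p
  induction p with
  | nil => intro _ h; simp at h
  | @cons x z y h p ih =>
    intro htrail hmem
    rw [Walk.isTrail_cons] at htrail
    rw [Walk.edges_cons, List.mem_cons] at hmem
    by_cases he : s(a, b) = s(x, z)
    · have hp : s(a, b) ∉ p.edges := by rw [he]; exact htrail.2
      have hr : (H.deleteEdges {s(a, b)}).Reachable z y := by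
        refine (p.transfer _ ?_).reachable
        intro e hep
        rw [edgeSet_deleteEdges]
        refine ⟨p.edges_subset_edgeSet hep, ?_⟩
        intro heq
        rw [Set.mem_singleton_iff] at heq
        exact hp (heq ▸ hep)
      rcases Sym2.eq_iff.mp he with ⟨rfl, rfl⟩ | ⟨rfl, rfl⟩
      · left; exact ⟨Reachable.refl _, hr⟩
      · right; exact ⟨Reachable.refl _, hr⟩
    · have hmem' : s(a, b) ∈ p.edges := by
        rcases hmem with hm | hm
        · exact absurd hm he
        · exact hm
      have hxz : (H.deleteEdges {s(a, b)}).Reachable x z := by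
        apply Adj.reachable
        rw [deleteEdges_adj]
        refine ⟨h, ?_⟩
        rw [Set.mem_singleton_iff]
        exact fun heq => he heq.symm
      rcases ih htrail.1 hmem' with ⟨h1, h2⟩ | ⟨h1, h2⟩
      · left; exact ⟨hxz.trans h1, h2⟩
      · right; exact ⟨hxz.trans h1, h2⟩

/-- the cut of an edge: the side of its first end -/
def side (H : SimpleGraph V) (e : Sym2 V) (x : V) : Prop :=
  (H.deleteEdges {e}).Reachable (Quot.out e).1 x

open Classical in
/-- the weight of the cut of an edge -/
noncomputable def gw (H : SimpleGraph V) (w : Sym2 V → ℝ) (e : Sym2 V) : ℝ :=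
  if e ∈ H.edgeSet then w e else 0

theorem mk_out (e : Sym2 V) : s((Quot.out e).1, (Quot.out e).2) = e := by
  have : (Quot.mk _ (Quot.out e) : Sym2 V) = e := Quot.out_eq e
  exact this

theorem gw_nonneg {H : SimpleGraph V} {w : Sym2 V → ℝ} (hw : ∀ e ∈ H.edgeSet, 0 < w e)
    (e : Sym2 V) : 0 ≤ gw H w e := by
  unfold gw
  split_ifs with h
  · exact (hw e h).le
  · exact le_rfl

theorem side_iff {H : SimpleGraph V} {u v : V} (h : H.Adj u v) {e : Sym2 V} (he : e ≠ s(u, v)) :
    side H e u ↔ side H e v := by
  have huv : (H.deleteEdges {e}).Reachable u v := by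
    apply Adj.reachable
    rw [deleteEdges_adj]
    refine ⟨h, ?_⟩
    rw [Set.mem_singleton_iff]
    exact fun heq => he heq.symm
  exact ⟨fun hs => hs.trans huv, fun hs => hs.trans huv.symm⟩

theorem cutd_adj_le [Fintype (Sym2 V)] {H : SimpleGraph V} {w : Sym2 V → ℝ}
    (hw : ∀ e ∈ H.edgeSet, 0 < w e) {u v : V} (h : H.Adj u v) :
    cutd (gw H w) (side H) u v ≤ w s(u, v) := by
  classical
  unfold cutd
  rw [Finset.sum_eq_single s(u, v)]
  · have h1 : gw H w s(u, v) = w s(u, v) := by
      unfold gw
      rw [if_pos ((mem_edgeSet H).mpr h)]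
    rw [h1]
    have h2 : |ind (side H s(u, v) u) - ind (side H s(u, v) v)| ≤ 1 := by
      have a1 := ind_nonneg (side H s(u, v) u)
      have a2 := ind_le_one (side H s(u, v) u)
      have a3 := ind_nonneg (side H s(u, v) v)
      have a4 := ind_le_one (side H s(u, v) v)
      rw [abs_le]
      constructor <;> linarith
    have h3 := (hw _ ((mem_edgeSet H).mpr h)).le
    calc w s(u, v) * |ind (side H s(u, v) u) - ind (side H s(u, v) v)| ≤ w s(u, v) * 1 :=
          mul_le_mul_of_nonneg_left h2 h3
      _ = _ := mul_one _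
  · intro e _ he
    have : ind (side H e u) = ind (side H e v) := by
      by_cases hs : side H e u
      · rw [ind_true hs, ind_true ((side_iff h he).mp hs)]
      · rw [ind_false hs, ind_false (fun hs' => hs ((side_iff h he).mpr hs'))]
    rw [this]
    simp
  · intro h
    exact absurd (Finset.mem_univ _) h

theorem cutd_le_len [Fintype (Sym2 V)] {H : SimpleGraph V} {w : Sym2 V → ℝ}
    (hw : ∀ e ∈ H.edgeSet, 0 < w e) {x y : V} (p : H.Walk x y) :
    cutd (gw H w) (side H) x y ≤ len w p := by
  induction p with
  | nil => rw [cutd_self]; simp [len]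
  | @cons x z y h p ih =>
    have h1 := cutd_triangle (gw_nonneg hw) (side H) x z y
    have h2 := cutd_adj_le hw h
    have h3 : len w (Walk.cons h p) = w s(x, z) + len w p := by
      unfold len
      rw [Walk.edges_cons, List.map_cons, List.sum_cons]
    linarith

theorem sep_of_mem (H : SimpleGraph V) (hH : H.IsAcyclic) {x y : V} (p : H.Walk x y)
    (hp : p.IsTrail) {e : Sym2 V} (he : e ∈ p.edges) :
    |ind (side H e x) - ind (side H e y)| = 1 := by
  have heH : e ∈ H.edgeSet := p.edges_subset_edgeSet he
  have hbr : H.IsBridge e := isAcyclic_iff_forall_edge_isBridge.mp hH heH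
  set a := (Quot.out e).1 with ha
  set b := (Quot.out e).2 with hb
  have hab : s(a, b) = e := mk_out e
  have hbr' : ¬ (H.deleteEdges {s(a, b)}).Reachable a b := by
    rw [← isBridge_iff, hab]
    exact hbr
  have hside : ∀ z, side H e z ↔ (H.deleteEdges {s(a, b)}).Reachable a z := by
    intro z
    rw [hab]
    exact Iff.rfl
  rw [← hab] at he
  rcases trail_sides H p hp he with ⟨h1, h2⟩ | ⟨h1, h2⟩
  · rw [ind_true ((hside x).mpr h1.symm), ind_false (fun hs => hbr' (((hside y).mp hs).trans h2.symm))]
    norm_num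
  · rw [ind_true ((hside y).mpr h2), ind_false (fun hs => hbr' (((hside x).mp hs).trans h1))]
    norm_num

theorem len_le_cutd [Fintype (Sym2 V)] {H : SimpleGraph V} (hH : H.IsAcyclic) {w : Sym2 V → ℝ}
    (hw : ∀ e ∈ H.edgeSet, 0 < w e) {x y : V} (p : H.Walk x y) (hp : p.IsTrail) :
    len w p ≤ cutd (gw H w) (side H) x y := by
  classical
  have h1 : len w p = ∑ e ∈ p.edges.toFinset, w e := by
    unfold len
    rw [List.sum_toFinset _ hp.edges_nodup]
  rw [h1]
  unfold cutd
  calc ∑ e ∈ p.edges.toFinset, w e
      = ∑ e ∈ p.edges.toFinset, gw H w e * |ind (side H e x) - ind (side H e y)| := by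
        apply Finset.sum_congr rfl
        intro e he
        rw [List.mem_toFinset] at he
        rw [sep_of_mem H hH p hp he, mul_one]
        unfold gw
        rw [if_pos (p.edges_subset_edgeSet he)]
    _ ≤ _ := by
        apply Finset.sum_le_sum_of_subset_of_nonneg (Finset.subset_univ _)
        intro e _ _
        exact mul_nonneg (gw_nonneg hw e) (abs_nonneg _)

/-- **Forest metrics embed isometrically into `ℓ_1`.** -/
theorem forest_bound [Fintype V] (H : SimpleGraph V) (hH : H.IsAcyclic) : L1Bound H 1 := by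
  classical
  intro w hw
  let _ : Fintype (Sym2 V) := Fintype.ofFinite _
  let e := Fintype.equivFin (Sym2 V)
  refine ⟨Fintype.card (Sym2 V), fun x i => gw H w (e.symm i) * ind (side H (e.symm i) x), ?_⟩
  intro x y hxy
  have hsum : ∑ i, |gw H w (e.symm i) * ind (side H (e.symm i) x) -
      gw H w (e.symm i) * ind (side H (e.symm i) y)| = cutd (gw H w) (side H) x y := by
    unfold cutd
    rw [← Equiv.sum_comp e.symm]
    apply Finset.sum_congr rfl
    intro i _
    rw [← mul_sub, abs_mul, abs_of_nonneg (gw_nonneg hw _)]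
  rw [hsum, one_mul]
  constructor
  · obtain ⟨p, hp⟩ := hxy.exists_isPath
    exact (wd_le hw p).trans (len_le_cutd hH hw p hp.isTrail)
  · have : Nonempty (H.Walk x y) := hxy
    exact le_ciInf fun p => cutd_le_len hw p

end Vale.Agent.Lib.P235
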