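import Vale.Agent.Lib.P235.Graph
import Vale.Agent.Lib.P235.Cuts

/-!
# P235: gluing two graphs along at most one vertex
-/

namespace Vale.Agent.Lib.P235

open SimpleGraph Finset

variable {V : Type*}

/-- splitting a walk of a graph glued from `HA` and `HB` -/
def GW (HA HB : SimpleGraph V) (A B : Set V) (w : Sym2 V → ℝ) (x y : V) (l : ℝ) : Prop :=
  (x ∈ A → y ∈ A → ∃ q : HA.Walk x y, len w q ≤ l) ∧
  (x ∈ B → y ∈ B → ∃ q : HB.Walk x y, len w q ≤ l) ∧
  (x ∈ A → y ∈ B → ∃ c, c ∈ A ∧ c ∈ B ∧ ∃ (q : HA.Walk x c) (q' : HB.Walk c y),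
    len w q + len w q' ≤ l) ∧
  (x ∈ B → y ∈ A → ∃ c, c ∈ A ∧ c ∈ B ∧ ∃ (q : HB.Walk x c) (q' : HA.Walk c y),
    len w q + len w q' ≤ l)

theorem GW.swap {HA HB : SimpleGraph V} {A B : Set V} {w : Sym2 V → ℝ} {x y : V} {l : ℝ}
    (h : GW HA HB A B w x y l) : GW HB HA B A w x y l := by
  obtain ⟨h1, h2, h3, h4⟩ := h
  refine ⟨h2, h1, ?_, ?_⟩
  · intro hx hy
    obtain ⟨c, hcA, hcB, q⟩ := h4 hx hy
    exact ⟨c, hcB, hcA, q⟩
  · intro hx hy
    obtain ⟨c, hcA, hcB, q⟩ := h3 hx hy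
    exact ⟨c, hcB, hcA, q⟩

theorem len_cons {H : SimpleGraph V} {w : Sym2 V → ℝ} {x z y : V} (h : H.Adj x z)
    (p : H.Walk z y) : len w (Walk.cons h p) = w s(x, z) + len w p := by
  unfold len
  rw [Walk.edges_cons, List.map_cons, List.sum_cons]

theorem len_nil {H : SimpleGraph V} {w : Sym2 V → ℝ} {x : V} :
    len w (Walk.nil : H.Walk x x) = 0 := by
  simp [len]

theorem GW.step {HA HB : SimpleGraph V} {A B : Set V} {w : Sym2 V → ℝ}
    (hwA : ∀ e ∈ HA.edgeSet, 0 < w e) (hAB : (A ∩ B).Subsingleton)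
    (hA : ∀ a b, HA.Adj a b → a ∈ A ∧ b ∈ A) {x z y : V} (hxz : HA.Adj x z) {l : ℝ}
    (h : GW HA HB A B w z y l) : GW HA HB A B w x y (w s(x, z) + l) := by
  obtain ⟨h1, h2, h3, h4⟩ := h
  obtain ⟨hxA, hzA⟩ := hA x z hxz
  have hpos : 0 < w s(x, z) := hwA _ ((mem_edgeSet HA).mpr hxz)
  have g1 : y ∈ A → ∃ q : HA.Walk x y, len w q ≤ w s(x, z) + l := by
    intro hy
    obtain ⟨q, hq⟩ := h1 hzA hy
    exact ⟨Walk.cons hxz q, by rw [len_cons]; linarith⟩
  refine ⟨fun _ hy => g1 hy, ?_, ?_, ?_⟩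
  · intro hxB hyB
    obtain ⟨c, hcA, hcB, q, q', hq⟩ := h3 hzA hyB
    have hcx : c = x := hAB ⟨hcA, hcB⟩ ⟨hxA, hxB⟩
    subst hcx
    have := len_nonneg hwA q
    exact ⟨q', by linarith⟩
  · intro _ hyB
    obtain ⟨c, hcA, hcB, q, q', hq⟩ := h3 hzA hyB
    exact ⟨c, hcA, hcB, Walk.cons hxz q, q', by rw [len_cons]; linarith⟩
  · intro hxB hyA
    obtain ⟨q, hq⟩ := g1 hyA
    exact ⟨x, hxA, hxB, Walk.nil, q, by rw [len_nil]; linarith⟩

theorem GW.of_walk {H HA HB : SimpleGraph V} {A B : Set V} {w : Sym2 V → ℝ}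
    (hwA : ∀ e ∈ HA.edgeSet, 0 < w e) (hwB : ∀ e ∈ HB.edgeSet, 0 < w e)
    (hAB : (A ∩ B).Subsingleton)
    (hA : ∀ a b, HA.Adj a b → a ∈ A ∧ b ∈ A) (hB : ∀ a b, HB.Adj a b → a ∈ B ∧ b ∈ B)
    (hH : ∀ a b, H.Adj a b → HA.Adj a b ∨ HB.Adj a b) {x y : V} (p : H.Walk x y) :
    GW HA HB A B w x y (len w p) := by
  induction p with
  | @nil x =>
    refine ⟨fun _ _ => ⟨Walk.nil, ?_⟩, fun _ _ => ⟨Walk.nil, ?_⟩, fun hx hy => ⟨x, hx, hy, Walk.nil,
      Walk.nil, ?_⟩, fun hx hy => ⟨x, hy, hx, Walk.nil, Walk.nil, ?_⟩⟩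
    all_goals simp [len]
  | @cons x z y h p ih =>
    rw [len_cons]
    rcases hH x z h with h' | h'
    · exact GW.step hwA hAB hA h' ih
    · exact (GW.step hwB (by rwa [Set.inter_comm]) hB h' ih.swap).swap

section Main

variable {G : SimpleGraph V} {A B : Set V} {w : Sym2 V → ℝ}

/-- the glued graph -/
theorem glue_adj (hno : ∀ a ∈ A, a ∉ B → ∀ b ∈ B, b ∉ A → ¬ G.Adj a b) {a b : V}
    (h : (keep G (A ∪ B)).Adj a b) : (keep G A).Adj a b ∨ (keep G B).Adj a b := by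
  obtain ⟨hab, ha, hb⟩ := h
  by_cases haA : a ∈ A
  · by_cases hbA : b ∈ A
    · left; exact ⟨hab, haA, hbA⟩
    · have hbB : b ∈ B := hb.resolve_left hbA
      by_cases haB : a ∈ B
      · right; exact ⟨hab, haB, hbB⟩
      · exact absurd hab (hno a haA haB b hbB hbA)
  · have haB : a ∈ B := ha.resolve_left haA
    by_cases hbB : b ∈ B
    · right; exact ⟨hab, haB, hbB⟩
    · have hbA : b ∈ A := hb.resolve_right hbB
      exact absurd hab.symm (hno b hbA hbB a haB haA)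

theorem wd_mono {H H' : SimpleGraph V} (hle : H ≤ H') (hw : ∀ e ∈ H'.edgeSet, 0 < w e) {x y : V}
    (h : H.Reachable x y) : wd H' w x y ≤ wd H w x y := by
  have : Nonempty (H.Walk x y) := h
  apply le_ciInf
  intro p
  have h : ∀ e ∈ p.edges, e ∈ H'.edgeSet := fun e he =>
    edgeSet_mono hle (p.edges_subset_edgeSet he)
  have h1 := wd_le hw (p.transfer H' h)
  unfold len at h1 ⊢
  rwa [Walk.edges_transfer] at h1

/-- **Gluing along at most one vertex does not increase the distortion.** -/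
theorem glue_bound [Finite V] {K : ℝ} (hsub : (A ∩ B).Subsingleton)
    (hno : ∀ a ∈ A, a ∉ B → ∀ b ∈ B, b ∉ A → ¬ G.Adj a b)
    (hLA : L1Bound (keep G A) K) (hLB : L1Bound (keep G B) K) :
    L1Bound (keep G (A ∪ B)) K := by
  classical
  intro w hw
  have hAle : keep G A ≤ keep G (A ∪ B) := fun a b h =>
    ⟨h.1, Set.mem_union_left _ h.2.1, Set.mem_union_left _ h.2.2⟩
  have hBle : keep G B ≤ keep G (A ∪ B) := fun a b h =>
    ⟨h.1, Set.mem_union_right _ h.2.1, Set.mem_union_right _ h.2.2⟩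
  have hwA : ∀ e ∈ (keep G A).edgeSet, 0 < w e := fun e he => hw e (edgeSet_mono hAle he)
  have hwB : ∀ e ∈ (keep G B).edgeSet, 0 < w e := fun e he => hw e (edgeSet_mono hBle he)
  obtain ⟨N, f, hf⟩ := hLA w hwA
  obtain ⟨N', g, hg⟩ := hLB w hwB
  have hGW : ∀ {x y : V} (p : (keep G (A ∪ B)).Walk x y),
      GW (keep G A) (keep G B) A B w x y (len w p) := fun p =>
    GW.of_walk hwA hwB hsub (fun a b h => h.2) (fun a b h => h.2) (fun a b h => glue_adj hno h) p
  rcases isEmpty_or_nonempty V with hV | hV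
  · exact ⟨0, fun _ => Fin.elim0, fun x => hV.elim x⟩
  obtain ⟨c, hc⟩ : ∃ c : V, ∀ z, z ∈ A → z ∈ B → z = c := by
    by_cases hne : (A ∩ B).Nonempty
    · obtain ⟨c, hcAB⟩ := hne
      exact ⟨c, fun z hzA hzB => hsub ⟨hzA, hzB⟩ hcAB⟩
    · obtain ⟨c⟩ := hV
      exact ⟨c, fun z hzA hzB => absurd ⟨z, hzA, hzB⟩ hne⟩
  -- pairs in `A`
  have pA : ∀ x y, x ∈ A → y ∈ A → (keep G (A ∪ B)).Reachable x y →
      (keep G A).Reachable x y ∧ wd (keep G (A ∪ B)) w x y = wd (keep G A) w x y := by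
    intro x y hx hy hxy
    obtain ⟨p⟩ := id hxy
    obtain ⟨q, _⟩ := (hGW p).1 hx hy
    refine ⟨q.reachable, le_antisymm (wd_mono hAle hw q.reachable) ?_⟩
    have : Nonempty ((keep G (A ∪ B)).Walk x y) := hxy
    apply le_ciInf
    intro p
    obtain ⟨q, hq⟩ := (hGW p).1 hx hy
    exact (wd_le hwA q).trans hq
  have pB : ∀ x y, x ∈ B → y ∈ B → (keep G (A ∪ B)).Reachable x y →
      (keep G B).Reachable x y ∧ wd (keep G (A ∪ B)) w x y = wd (keep G B) w x y := by
    intro x y hx hy hxy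
    obtain ⟨p⟩ := id hxy
    obtain ⟨q, _⟩ := (hGW p).2.1 hx hy
    refine ⟨q.reachable, le_antisymm (wd_mono hBle hw q.reachable) ?_⟩
    have : Nonempty ((keep G (A ∪ B)).Walk x y) := hxy
    apply le_ciInf
    intro p
    obtain ⟨q, hq⟩ := (hGW p).2.1 hx hy
    exact (wd_le hwB q).trans hq
  have pAB : ∀ x y, x ∈ A → y ∈ B → (keep G (A ∪ B)).Reachable x y →
      c ∈ A ∧ c ∈ B ∧ (keep G A).Reachable x c ∧ (keep G B).Reachable c y ∧
        wd (keep G (A ∪ B)) w x y = wd (keep G A) w x c + wd (keep G B) w c y := by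
    intro x y hx hy hxy
    obtain ⟨p⟩ := id hxy
    obtain ⟨c', hcA, hcB, q, q', _⟩ := (hGW p).2.2.1 hx hy
    obtain rfl := hc c' hcA hcB
    refine ⟨hcA, hcB, q.reachable, q'.reachable, le_antisymm ?_ ?_⟩
    · have h1 := wd_triangle hw (q.reachable.mono hAle) (q'.reachable.mono hBle)
      have h2 := wd_mono hAle hw q.reachable
      have h3 := wd_mono hBle hw q'.reachable
      linarith
    · have : Nonempty ((keep G (A ∪ B)).Walk x y) := hxy
      apply le_ciInf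
      intro p
      obtain ⟨c2, hcA', hcB', q1, q2, hq⟩ := (hGW p).2.2.1 hx hy
      have hcc := hc c2 hcA' hcB'
      subst hcc
      have h1 := wd_le hwA q1
      have h2 := wd_le hwB q2
      linarith
  -- the map
  let F : V → Fin N → ℝ := fun x => if x ∈ A then f x else f c
  let F' : V → Fin N' → ℝ := fun x => if x ∈ B then g x else g c
  have hFA : ∀ x ∈ A, F x = f x := fun x hx => if_pos hx
  have hFA' : ∀ x ∈ A, F' x = g c := by
    intro x hx
    by_cases hxB : x ∈ B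
    · have := hc x hx hxB
      subst this
      exact if_pos hxB
    · exact if_neg hxB
  have hFB : ∀ x ∈ B, F' x = g x := fun x hx => if_pos hx
  have hFB' : ∀ x ∈ B, F x = f c := by
    intro x hx
    by_cases hxA : x ∈ A
    · have := hc x hxA hx
      subst this
      exact if_pos hxA
    · exact if_neg hxA
  have caseAB : ∀ x y, x ∈ A → y ∈ B → (keep G (A ∪ B)).Reachable x y →
      wd (keep G (A ∪ B)) w x y ≤ ∑ i, |F x i - F y i| + ∑ i, |F' x i - F' y i| ∧
      ∑ i, |F x i - F y i| + ∑ i, |F' x i - F' y i| ≤ K * wd (keep G (A ∪ B)) w x y := by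
    intro x y hx hy hxy
    obtain ⟨hcA, hcB, r1, r2, heq⟩ := pAB x y hx hy hxy
    rw [hFA x hx, hFB' y hy, hFA' x hx, hFB y hy, heq]
    obtain ⟨a1, a2⟩ := hf x c r1
    obtain ⟨b1, b2⟩ := hg c y r2
    constructor
    · linarith
    · linarith
  have main : ∀ x y, (keep G (A ∪ B)).Reachable x y →
      wd (keep G (A ∪ B)) w x y ≤ ∑ i, |F x i - F y i| + ∑ i, |F' x i - F' y i| ∧
      ∑ i, |F x i - F y i| + ∑ i, |F' x i - F' y i| ≤ K * wd (keep G (A ∪ B)) w x y := by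
    intro x y hxy
    by_cases hxy' : x = y
    · subst hxy'
      rw [wd_self hw]
      simp
    · have hxU : x ∈ A ∪ B := by
        obtain ⟨p⟩ := id hxy
        cases p with
        | nil => exact absurd rfl hxy'
        | cons h p => exact h.2.1
      have hyU : y ∈ A ∪ B := by
        obtain ⟨p⟩ := hxy.symm
        cases p with
        | nil => exact absurd rfl hxy'
        | cons h p => exact h.2.1
      by_cases hxA : x ∈ A
      · by_cases hyB : y ∈ B
        · exact caseAB x y hxA hyB hxy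
        · have hyA : y ∈ A := hyU.resolve_right hyB
          obtain ⟨r, heq⟩ := pA x y hxA hyA hxy
          rw [hFA x hxA, hFA y hyA, hFA' x hxA, hFA' y hyA, heq]
          simpa using hf x y r
      · have hxB : x ∈ B := hxU.resolve_left hxA
        by_cases hyA : y ∈ A
        · have h := caseAB y x hyA hxB hxy.symm
          rw [wd_comm hw hxy.symm] at h
          have e1 : ∑ i, |F y i - F x i| = ∑ i, |F x i - F y i| :=
            Finset.sum_congr rfl fun i _ => abs_sub_comm _ _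
          have e2 : ∑ i, |F' y i - F' x i| = ∑ i, |F' x i - F' y i| :=
            Finset.sum_congr rfl fun i _ => abs_sub_comm _ _
          rw [e1, e2] at h
          exact h
        · have hyB : y ∈ B := hyU.resolve_left hyA
          obtain ⟨r, heq⟩ := pB x y hxB hyB hxy
          rw [hFB' x hxB, hFB' y hyB, hFB x hxB, hFB y hyB, heq]
          simpa using hg x y r
  refine ⟨N + N', fun x i => Sum.elim (F x) (F' x) (finSumFinEquiv.symm i), ?_⟩
  intro x y hxy
  have hsum : ∑ i, |Sum.elim (F x) (F' x) (finSumFinEquiv.symm i) -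
      Sum.elim (F y) (F' y) (finSumFinEquiv.symm i)| =
      ∑ i, |F x i - F y i| + ∑ i, |F' x i - F' y i| := by
    rw [Equiv.sum_comp finSumFinEquiv.symm
      (fun i => |Sum.elim (F x) (F' x) i - Sum.elim (F y) (F' y) i|), Fintype.sum_sum_type]
    rfl
  rw [hsum]
  exact main x y hxy

end Main

end Vale.Agent.Lib.P235
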