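import Vale.Agent.Lib.P235.Defs

/-!
# P235: walks, distances and the distance to the removed vertices
-/

namespace Vale.Agent.Lib.P235

open SimpleGraph

variable {V : Type*} {G : SimpleGraph V} {w : Sym2 V → ℝ}

theorem len_nonneg (hw : ∀ e ∈ G.edgeSet, 0 < w e) {x y : V} (p : G.Walk x y) : 0 ≤ len w p := by
  unfold len
  apply List.sum_nonneg
  intro a ha
  rw [List.mem_map] at ha
  obtain ⟨e, he, rfl⟩ := ha
  exact (hw e (p.edges_subset_edgeSet he)).le

theorem len_append {x y z : V} (p : G.Walk x y) (q : G.Walk y z) :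
    len w (p.append q) = len w p + len w q := by
  unfold len
  rw [Walk.edges_append, List.map_append, List.sum_append]

theorem len_reverse {x y : V} (p : G.Walk x y) : len w p.reverse = len w p := by
  unfold len
  rw [Walk.edges_reverse, List.map_reverse, List.sum_reverse]

theorem wd_le (hw : ∀ e ∈ G.edgeSet, 0 < w e) {x y : V} (p : G.Walk x y) :
    wd G w x y ≤ len w p :=
  ciInf_le ⟨0, by rintro _ ⟨q, rfl⟩; exact len_nonneg hw q⟩ p

theorem wd_nonneg (hw : ∀ e ∈ G.edgeSet, 0 < w e) (x y : V) : 0 ≤ wd G w x y :=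
  Real.iInf_nonneg fun p => len_nonneg hw p

theorem wd_self (hw : ∀ e ∈ G.edgeSet, 0 < w e) (x : V) : wd G w x x = 0 :=
  le_antisymm (by simpa [len] using wd_le hw (Walk.nil : G.Walk x x)) (wd_nonneg hw x x)

theorem exists_walk_lt {x y : V} (h : G.Reachable x y) {t : ℝ} (ht : wd G w x y < t) :
    ∃ p : G.Walk x y, len w p < t := by
  have : Nonempty (G.Walk x y) := h
  exact exists_lt_of_ciInf_lt ht

theorem wd_comm (hw : ∀ e ∈ G.edgeSet, 0 < w e) {x y : V} (h : G.Reachable x y) :
    wd G w x y = wd G w y x := by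
  have key : ∀ {x y : V}, G.Reachable x y → wd G w x y ≤ wd G w y x := by
    intro x y h
    have : Nonempty (G.Walk y x) := h.symm
    apply le_ciInf
    intro p
    rw [← len_reverse p]
    exact wd_le hw _
  exact le_antisymm (key h) (key h.symm)

theorem wd_triangle (hw : ∀ e ∈ G.edgeSet, 0 < w e) {x y z : V} (h : G.Reachable x y)
    (h' : G.Reachable y z) : wd G w x z ≤ wd G w x y + wd G w y z := by
  apply le_of_forall_pos_lt_add
  intro ε hε
  obtain ⟨p, hp⟩ := exists_walk_lt (w := w) h (t := wd G w x y + ε / 2) (by linarith)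
  obtain ⟨q, hq⟩ := exists_walk_lt (w := w) h' (t := wd G w y z + ε / 2) (by linarith)
  have := wd_le hw (p.append q)
  rw [len_append] at this
  linarith

/-- a vertex on a walk splits its length -/
theorem wd_add_wd_le (hw : ∀ e ∈ G.edgeSet, 0 < w e) {x y v : V} (p : G.Walk x y)
    (hv : v ∈ p.support) : wd G w x v + wd G w v y ≤ len w p := by
  classical
  have h1 := wd_le hw (p.takeUntil v hv)
  have h2 := wd_le hw (p.dropUntil v hv)
  have h3 : len w p = len w (p.takeUntil v hv) + len w (p.dropUntil v hv) := by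
    rw [← len_append, Walk.take_spec]
  linarith

theorem keep_le (S : Set V) : keep G S ≤ G := fun _ _ h => h.1

theorem keep_edge (hw : ∀ e ∈ G.edgeSet, 0 < w e) (S : Set V) :
    ∀ e ∈ (keep G S).edgeSet, 0 < w e := fun e he => hw e (edgeSet_mono (keep_le S) he)

/-- a walk inside `S` is a walk of `keep G S` -/
theorem exists_walk_keep {S : Set V} {x y : V} (p : G.Walk x y) (hp : ∀ v ∈ p.support, v ∈ S) :
    ∃ q : (keep G S).Walk x y, len w q = len w p := by
  have h : ∀ e ∈ p.edges, e ∈ (keep G S).edgeSet := by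
    intro e he
    induction e with
    | _ a b =>
      rw [mem_edgeSet]
      exact ⟨p.adj_of_mem_edges he, hp _ (p.fst_mem_support_of_mem_edges he),
        hp _ (p.snd_mem_support_of_mem_edges he)⟩
  exact ⟨p.transfer _ h, by unfold len; rw [Walk.edges_transfer]⟩

/-- `wd` of the graph is at most `wd` of a kept part -/
theorem wd_le_wd_keep (hw : ∀ e ∈ G.edgeSet, 0 < w e) {S : Set V} {x y : V}
    (h : (keep G S).Reachable x y) : wd G w x y ≤ wd (keep G S) w x y := by
  have : Nonempty ((keep G S).Walk x y) := h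
  apply le_ciInf
  intro p
  have h : ∀ e ∈ p.edges, e ∈ G.edgeSet := fun e he =>
    edgeSet_mono (keep_le S) (p.edges_subset_edgeSet he)
  have h1 := wd_le hw (p.transfer G h)
  unfold len at h1 ⊢
  rwa [Walk.edges_transfer] at h1

section Rho

variable [Finite V]

open Classical in
/-- the distance to the set `U`, truncated at `M` -/
noncomputable def rho (G : SimpleGraph V) (w : Sym2 V → ℝ) (M : ℝ) (U : Set V) (x : V) : ℝ :=
  ⨅ u : V, (if u ∈ U then wd G w x u else M)

variable {M : ℝ} {U : Set V}

theorem rho_nonneg (hw : ∀ e ∈ G.edgeSet, 0 < w e) (hM : 0 ≤ M) (x : V) :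
    0 ≤ rho G w M U x := by
  apply Real.iInf_nonneg
  intro u
  split_ifs
  · exact wd_nonneg hw _ _
  · exact hM

theorem rho_bdd (f : V → ℝ) : BddBelow (Set.range f) := (Set.finite_range f).bddBelow

theorem rho_le_wd {x u : V} (hu : u ∈ U) : rho G w M U x ≤ wd G w x u := by
  classical
  have := ciInf_le (rho_bdd (fun u => if u ∈ U then wd G w x u else M)) u
  unfold rho
  simp only [if_pos hu] at this
  exact this

theorem rho_le_M {x u : V} (hu : u ∉ U) : rho G w M U x ≤ M := by
  classical
  have := ciInf_le (rho_bdd (fun u => if u ∈ U then wd G w x u else M)) u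
  unfold rho
  simp only [if_neg hu] at this
  exact this

theorem rho_zero (hw : ∀ e ∈ G.edgeSet, 0 < w e) (hM : 0 ≤ M) {x : V} (hx : x ∈ U) :
    rho G w M U x = 0 :=
  le_antisymm ((rho_le_wd hx).trans_eq (wd_self hw x)) (rho_nonneg hw hM x)

theorem rho_empty [Nonempty V] (x : V) : rho G w M ∅ x = M := by
  unfold rho
  simp

theorem rho_lip (hw : ∀ e ∈ G.edgeSet, 0 < w e) (hc : G.Connected) (x y : V) :
    |rho G w M U x - rho G w M U y| ≤ wd G w x y := by
  classical
  have : Nonempty V := ⟨x⟩
  have key : ∀ x y : V, rho G w M U x ≤ rho G w M U y + wd G w x y := by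
    intro x y
    rw [← sub_le_iff_le_add]
    apply le_ciInf
    intro u
    split_ifs with hu
    · have h1 := rho_le_wd (G := G) (w := w) (M := M) (x := x) hu
      have h2 := wd_triangle hw (hc.preconnected x y) (hc.preconnected y u)
      linarith
    · have h1 := rho_le_M (G := G) (w := w) (M := M) (x := x) hu
      have h2 := wd_nonneg hw x y
      linarith
  have h1 := key x y
  have h2 := key y x
  rw [wd_comm hw (hc.preconnected y x)] at h2
  rw [abs_le]
  constructor <;> linarith

/-- short walks stay away from the removed set -/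
theorem support_of_lt (hw : ∀ e ∈ G.edgeSet, 0 < w e) {x y : V} (p : G.Walk x y)
    (hp : len w p < rho G w M U x) : ∀ v ∈ p.support, v ∉ U := by
  intro v hv hvU
  have h1 := wd_add_wd_le hw p hv
  have h2 := wd_nonneg hw v y
  have h3 := rho_le_wd (G := G) (w := w) (M := M) (x := x) hvU
  linarith

/-- (K2) -/
theorem rho_add_le (hw : ∀ e ∈ G.edgeSet, 0 < w e) (hc : G.Connected) {x y : V}
    (h : ¬ (keep G Uᶜ).Reachable x y) :
    rho G w M U x + rho G w M U y ≤ wd G w x y := by
  have : Nonempty (G.Walk x y) := hc.preconnected x y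
  apply le_ciInf
  intro p
  by_cases hp : ∀ v ∈ p.support, v ∈ Uᶜ
  · obtain ⟨q, _⟩ := exists_walk_keep (w := w) p hp
    exact absurd q.reachable h
  · push Not at hp
    obtain ⟨v, hv, hvU⟩ := hp
    have hvU' : v ∈ U := not_not.mp hvU
    have h1 := wd_add_wd_le hw p hv
    have h2 := rho_le_wd (G := G) (w := w) (M := M) (x := x) hvU'
    have h3 := rho_le_wd (G := G) (w := w) (M := M) (x := y) hvU'
    rw [wd_comm hw (hc.preconnected y v)] at h3
    linarith

/-- (K3) -/
theorem wd_keep_le (hw : ∀ e ∈ G.edgeSet, 0 < w e) (hc : G.Connected) {x y : V}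
    (h : wd G w x y < rho G w M U x + rho G w M U y) :
    (keep G Uᶜ).Reachable x y ∧ wd (keep G Uᶜ) w x y ≤ wd G w x y := by
  have hr : (keep G Uᶜ).Reachable x y := by
    by_contra hcon
    exact absurd (rho_add_le hw hc (M := M) hcon) (not_le.mpr h)
  refine ⟨hr, ?_⟩
  by_contra hcon
  push Not at hcon
  obtain ⟨p, hp⟩ := exists_walk_lt (w := w) (hc.preconnected x y) (lt_min hcon h)
  have hp1 := lt_of_lt_of_le hp (min_le_left _ _)
  have hp2 := lt_of_lt_of_le hp (min_le_right _ _)
  have hsup : ∀ v ∈ p.support, v ∈ Uᶜ := by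
    intro v hv hvU
    have h1 := wd_add_wd_le hw p hv
    have h2 := rho_le_wd (G := G) (w := w) (M := M) (x := x) hvU
    have h3 := rho_le_wd (G := G) (w := w) (M := M) (x := y) hvU
    rw [wd_comm hw (hc.preconnected y v)] at h3
    linarith
  obtain ⟨q, hq⟩ := exists_walk_keep (w := w) p hsup
  have := wd_le (keep_edge hw _) q
  linarith

/-- (K1), one vertex: if adding `T` decreases `rho` at `x`, then `x` is joined inside the kept part
to a vertex of `T` realizing the new distance. -/
theorem exists_near (hw : ∀ e ∈ G.edgeSet, 0 < w e) (hc : G.Connected) {T : Set V} {x : V}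
    (h : rho G w M (U ∪ T) x < rho G w M U x) :
    ∃ t ∈ T, (keep G Uᶜ).Reachable x t ∧ wd G w x t = rho G w M (U ∪ T) x := by
  classical
  have : Nonempty V := ⟨x⟩
  obtain ⟨u, hu⟩ := exists_eq_ciInf_of_finite (f := fun u => if u ∈ U ∪ T then wd G w x u else M)
  have hu' : (if u ∈ U ∪ T then wd G w x u else M) = rho G w M (U ∪ T) x := by
    rw [hu]; unfold rho
    exact iInf_congr fun i => by split_ifs <;> rfl
  by_cases huU : u ∈ U
  · rw [if_pos (Set.mem_union_left _ huU)] at hu'
    have := rho_le_wd (G := G) (w := w) (M := M) (x := x) huU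
    linarith
  · by_cases huT : u ∈ T
    · rw [if_pos (Set.mem_union_right _ huT)] at hu'
      refine ⟨u, huT, ?_, hu'⟩
      rw [← hu'] at h
      obtain ⟨p, hp⟩ := exists_walk_lt (w := w) (hc.preconnected x u) h
      obtain ⟨q, _⟩ := exists_walk_keep (w := w) (S := Uᶜ) p (support_of_lt hw p hp)
      exact q.reachable
    · have hnot : u ∉ U ∪ T := by simp [huU, huT]
      rw [if_neg hnot] at hu'
      have := rho_le_M (G := G) (w := w) (M := M) (x := x) huU
      linarith

/-- (K1): in a round at most one of two joined vertices gets close to the removed set -/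
theorem one_drops (hw : ∀ e ∈ G.edgeSet, 0 < w e) (hc : G.Connected) {T : Set V} {x y : V}
    (hone : ∀ a ∈ T, ∀ b ∈ T, (keep G Uᶜ).Reachable a b → a = b)
    (hxy : (keep G Uᶜ).Reachable x y) {d : ℝ} (hd : d ≤ wd G w x y)
    (hx : rho G w M (U ∪ T) x < rho G w M U x) (hx' : rho G w M (U ∪ T) x < d / 2)
    (hy : rho G w M (U ∪ T) y < rho G w M U y) (hy' : rho G w M (U ∪ T) y < d / 2) : False := by
  obtain ⟨t, ht, hrt, hdt⟩ := exists_near hw hc hx
  obtain ⟨s, hs, hrs, hds⟩ := exists_near hw hc hy
  have hts : t = s := hone t ht s hs (hrt.symm.trans (hxy.trans hrs))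
  subst hts
  have h1 := wd_triangle hw (hc.preconnected x t) (hc.preconnected t y)
  rw [wd_comm hw (hc.preconnected t y)] at h1
  linarith

end Rho

end Vale.Agent.Lib.P235
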