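import Vale.Agent.Lib.P235.Cuts

/-!
# P235: the localized map
-/

namespace Vale.Agent.Lib.P235

open Finset

/-- tent functions -/
noncomputable def phi (j : ℤ) (t : ℝ) : ℝ := max 0 (min (t - (2:ℝ) ^ j / 2) (4 * (2:ℝ) ^ j - t))

theorem phi_nonneg (j : ℤ) (t : ℝ) : 0 ≤ phi j t := le_max_left _ _

theorem phi_lip (j : ℤ) (a b : ℝ) : |phi j a - phi j b| ≤ |a - b| := by
  have h1 : |max 0 (min (a - (2:ℝ) ^ j / 2) (4 * (2:ℝ) ^ j - a)) -
      max 0 (min (b - (2:ℝ) ^ j / 2) (4 * (2:ℝ) ^ j - b))| ≤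
      |min (a - (2:ℝ) ^ j / 2) (4 * (2:ℝ) ^ j - a) -
        min (b - (2:ℝ) ^ j / 2) (4 * (2:ℝ) ^ j - b)| := by
    have := abs_max_sub_max_le_max (0:ℝ) (min (a - (2:ℝ) ^ j / 2) (4 * (2:ℝ) ^ j - a)) 0
      (min (b - (2:ℝ) ^ j / 2) (4 * (2:ℝ) ^ j - b))
    rw [sub_self, abs_zero] at this
    exact this.trans (max_le (abs_nonneg _) le_rfl)
  have h2 : |min (a - (2:ℝ) ^ j / 2) (4 * (2:ℝ) ^ j - a) -
        min (b - (2:ℝ) ^ j / 2) (4 * (2:ℝ) ^ j - b)| ≤ |a - b| := by
    have := abs_min_sub_min_le_max (a - (2:ℝ) ^ j / 2) (4 * (2:ℝ) ^ j - a)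
      (b - (2:ℝ) ^ j / 2) (4 * (2:ℝ) ^ j - b)
    refine this.trans (max_le ?_ ?_)
    · rw [sub_sub_sub_cancel_right]
    · rw [sub_sub_sub_cancel_left, abs_sub_comm]
  exact h1.trans h2

theorem phi_le (j : ℤ) {t : ℝ} (ht : 0 ≤ t) : phi j t ≤ t := by
  have hq : (0:ℝ) < (2:ℝ) ^ j := by positivity
  unfold phi
  apply max_le ht
  exact (min_le_left _ _).trans (by linarith)

theorem phi_le' (j : ℤ) (t : ℝ) : phi j t ≤ 7 / 4 * (2:ℝ) ^ j := by
  have hq : (0:ℝ) < (2:ℝ) ^ j := by positivity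
  unfold phi
  apply max_le (by positivity)
  rcases le_total (t - (2:ℝ) ^ j / 2) (4 * (2:ℝ) ^ j - t) with h | h
  · rw [min_eq_left h]; linarith
  · rw [min_eq_right h]; linarith

theorem phi_eq_zero {j : ℤ} {t : ℝ} (h : ¬ ((2:ℝ) ^ j / 2 < t ∧ t < 4 * (2:ℝ) ^ j)) :
    phi j t = 0 := by
  unfold phi
  apply max_eq_left
  by_cases h1 : (2:ℝ) ^ j / 2 < t
  · have h2 : 4 * (2:ℝ) ^ j ≤ t := by
      by_contra hcon
      exact h ⟨h1, not_le.mp hcon⟩
    exact (min_le_right _ _).trans (by linarith)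
  · exact (min_le_left _ _).trans (by linarith)

theorem phi_ge {j : ℤ} {t : ℝ} (h1 : (2:ℝ) ^ j ≤ t) (h2 : t < 2 * (2:ℝ) ^ j) :
    (2:ℝ) ^ j / 2 ≤ phi j t := by
  have hq : (0:ℝ) < (2:ℝ) ^ j := by positivity
  unfold phi
  refine le_trans ?_ (le_max_right _ _)
  apply le_min <;> linarith

/-- at most three scales are active -/
theorem sum_active (Z : Finset ℤ) {t : ℝ} (ht : 0 ≤ t) (F : ℤ → ℝ) {B : ℝ} (hB : 0 ≤ B)
    (h : ∀ j : ℤ, ((2:ℝ) ^ j / 2 < t ∧ t < 4 * (2:ℝ) ^ j) → F j ≤ B)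
    (h0 : ∀ j : ℤ, ¬ ((2:ℝ) ^ j / 2 < t ∧ t < 4 * (2:ℝ) ^ j) → F j ≤ 0) :
    ∑ j ∈ Z, F j ≤ 3 * B := by
  classical
  rcases ht.eq_or_lt with rfl | ht
  · have : ∑ j ∈ Z, F j ≤ 0 := by
      apply Finset.sum_nonpos
      intro j _
      apply h0 j
      rintro ⟨h1, _⟩
      have hq : (0:ℝ) < (2:ℝ) ^ j := by positivity
      linarith
    linarith
  · set L := Int.log 2 t with hL
    have hL1 : (2:ℝ) ^ L ≤ t := by
      have := Int.zpow_log_le_self (R := ℝ) (b := 2) (by norm_num) ht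
      exact_mod_cast this
    have hL2 : t < (2:ℝ) ^ (L + 1) := by
      have := Int.lt_zpow_succ_log_self (R := ℝ) (b := 2) (by norm_num) t
      exact_mod_cast this
    have hmem : ∀ j : ℤ, ((2:ℝ) ^ j / 2 < t ∧ t < 4 * (2:ℝ) ^ j) → j ∈ Finset.Icc (L - 1) (L + 1) := by
      rintro j ⟨h1, h2⟩
      rw [Finset.mem_Icc]
      have e1 : (2:ℝ) ^ j / 2 = (2:ℝ) ^ (j - 1) := by
        rw [zpow_sub₀ (by norm_num : (2:ℝ) ≠ 0)]; simp
      have e2 : 4 * (2:ℝ) ^ j = (2:ℝ) ^ (j + 2) := by
        rw [zpow_add₀ (by norm_num : (2:ℝ) ≠ 0)]; norm_num; ring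
      rw [e1] at h1
      rw [e2] at h2
      have h3 : (2:ℝ) ^ (j - 1) < (2:ℝ) ^ (L + 1) := h1.trans hL2
      have h4 : (2:ℝ) ^ L < (2:ℝ) ^ (j + 2) := lt_of_le_of_lt hL1 h2
      rw [zpow_lt_zpow_iff_right₀ (by norm_num : (1:ℝ) < 2)] at h3 h4
      constructor <;> omega
    calc ∑ j ∈ Z, F j ≤ ∑ j ∈ Z, (if j ∈ Finset.Icc (L - 1) (L + 1) then B else 0) := by
          apply Finset.sum_le_sum
          intro j _
          by_cases hj : (2:ℝ) ^ j / 2 < t ∧ t < 4 * (2:ℝ) ^ j
          · rw [if_pos (hmem j hj)]; exact h j hj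
          · refine (h0 j hj).trans ?_
            split_ifs
            · exact hB
            · exact le_rfl
      _ = ∑ j ∈ Z.filter (fun j => j ∈ Finset.Icc (L - 1) (L + 1)), B := by
          rw [Finset.sum_filter]
      _ = ((Z.filter (fun j => j ∈ Finset.Icc (L - 1) (L + 1))).card : ℝ) * B := by
          rw [Finset.sum_const, nsmul_eq_mul]
      _ ≤ 3 * B := by
          have h1 : (Z.filter (fun j => j ∈ Finset.Icc (L - 1) (L + 1))).card ≤ 3 := by
            calc _ ≤ (Finset.Icc (L - 1) (L + 1)).card := by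
                  apply Finset.card_le_card
                  intro j hj
                  exact (Finset.mem_filter.mp hj).2
              _ = 3 := by rw [Int.card_Icc]; ring_nf; rfl
          have h2 : ((Z.filter (fun j => j ∈ Finset.Icc (L - 1) (L + 1))).card : ℝ) ≤ 3 := by
            exact_mod_cast h1
          exact mul_le_mul_of_nonneg_right h2 hB

/-- the contribution of one scale -/
noncomputable def TT {V : Type*} {I : Type} [Fintype I] (g : I → ℝ) (c : I → V → Prop) (rh : V → ℝ)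
    (x y : V) (j : ℤ) : ℝ :=
  |phi j (rh x) - phi j (rh y)| * ((1 + Real.exp (-(2 * cutd g c x y / (2:ℝ) ^ j))) / 2) +
    (phi j (rh x) + phi j (rh y)) * ((1 - Real.exp (-(2 * cutd g c x y / (2:ℝ) ^ j))) / 2)

/-- the coordinates of the localized map -/
noncomputable def LL {V : Type*} {I : Type} [Fintype I] (g : I → ℝ)
    (c : I → V → Prop) (rh : V → ℝ) (x : V) (j : ℤ) (B : I → Bool) : ℝ :=
  pr (pp g ((2:ℝ) ^ j)) B * (phi j (rh x) * sgn c B x)

theorem sum_LL {V : Type*} {I : Type} [Fintype I] [DecidableEq I] (g : I → ℝ) (hg : ∀ i, 0 ≤ g i)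
    (c : I → V → Prop) (rh : V → ℝ) (x y : V) (j : ℤ) :
    ∑ B : I → Bool, |LL g c rh x j B - LL g c rh y j B| = TT g c rh x y j := by
  have hq : (0:ℝ) < (2:ℝ) ^ j := by positivity
  exact sum_abs_sgn hg c hq x y (phi_nonneg _ _) (phi_nonneg _ _)

theorem sum_LL' {V : Type*} {I : Type} [Fintype I] [DecidableEq I] (g : I → ℝ) (hg : ∀ i, 0 ≤ g i)
    (c : I → V → Prop) (rh : V → ℝ) (Z : Finset ℤ) (x y : V) :
    ∑ q : Z × (I → Bool), |LL g c rh x q.1 q.2 - LL g c rh y q.1 q.2| =
      ∑ j ∈ Z, TT g c rh x y j := by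
  rw [Fintype.sum_prod_type, ← Finset.sum_coe_sort Z (TT g c rh x y)]
  apply Finset.sum_congr rfl
  intro j _
  exact sum_LL g hg c rh x y j

/-- **The localized map.** -/
theorem exists_loc {V : Type*} [Fintype V] {I : Type} [Fintype I] (g : I → ℝ)
    (hg : ∀ i, 0 ≤ g i) (c : I → V → Prop) (rh : V → ℝ) (hrh : ∀ x, 0 ≤ rh x)
    (d : V → V → ℝ) {K : ℝ} (hK : 0 ≤ K) (h1 : ∀ x y, |rh x - rh y| ≤ d x y)
    (h2 : ∀ x y, d x y < rh x + rh y → cutd g c x y ≤ K * d x y) :
    ∃ (J : Type) (_ : Fintype J) (L : V → J → ℝ),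
      (∀ x y, ∑ j, |L x j - L y j| ≤ (6 + 21 / 2 * K) * d x y) ∧
      ∀ x y D, 0 < D → D / 4 ≤ rh x → D ≤ cutd g c x y → D / 34 ≤ ∑ j, |L x j - L y j| := by
  classical
  set Z : Finset ℤ := Finset.univ.image (fun x => Int.log 2 (rh x)) with hZ
  have hE : ∀ x y (j : ℤ), 0 ≤ Real.exp (-(2 * cutd g c x y / (2:ℝ) ^ j)) ∧
      Real.exp (-(2 * cutd g c x y / (2:ℝ) ^ j)) ≤ 1 := by
    intro x y j
    refine ⟨(Real.exp_pos _).le, Real.exp_le_one_iff.mpr ?_⟩
    have h3 := cutd_nonneg hg c x y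
    have h4 : 0 ≤ 2 * cutd g c x y / (2:ℝ) ^ j := by positivity
    linarith
  refine ⟨Z × (I → Bool), inferInstance, fun x q => LL g c rh x q.1 q.2, ?_, ?_⟩
  · intro x y
    rw [sum_LL' g hg c rh Z x y]
    have hd0 : 0 ≤ d x y := (abs_nonneg _).trans (h1 x y)
    have hcut := cutd_nonneg hg c x y
    by_cases hcase : d x y < rh x + rh y
    · have hle := h2 x y hcase
      set B := |rh x - rh y| + 7 / 4 * cutd g c x y with hBdef
      have hB : 0 ≤ B := by positivity
      have hTle : ∀ j ∈ Z, TT g c rh x y j ≤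
          (if (2:ℝ) ^ j / 2 < rh x ∧ rh x < 4 * (2:ℝ) ^ j then B else 0) +
          (if (2:ℝ) ^ j / 2 < rh y ∧ rh y < 4 * (2:ℝ) ^ j then B else 0) := by
        intro j _
        have hq : (0:ℝ) < (2:ℝ) ^ j := by positivity
        obtain ⟨e0, e1⟩ := hE x y j
        have e2 : (1 - Real.exp (-(2 * cutd g c x y / (2:ℝ) ^ j))) / 2 ≤ cutd g c x y / (2:ℝ) ^ j := by
          have := Real.add_one_le_exp (-(2 * cutd g c x y / (2:ℝ) ^ j))
          have e3 : 2 * cutd g c x y / (2:ℝ) ^ j = 2 * (cutd g c x y / (2:ℝ) ^ j) := by ring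
          linarith
        have e4 : ∀ t, phi j t * ((1 - Real.exp (-(2 * cutd g c x y / (2:ℝ) ^ j))) / 2) ≤
            7 / 4 * cutd g c x y := by
          intro t
          calc phi j t * ((1 - Real.exp (-(2 * cutd g c x y / (2:ℝ) ^ j))) / 2)
              ≤ (7 / 4 * (2:ℝ) ^ j) * (cutd g c x y / (2:ℝ) ^ j) :=
                mul_le_mul (phi_le' j t) e2 (by linarith) (by positivity)
            _ = 7 / 4 * cutd g c x y := by field_simp
        have e5 : |phi j (rh x) - phi j (rh y)| *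
            ((1 + Real.exp (-(2 * cutd g c x y / (2:ℝ) ^ j))) / 2) ≤ |rh x - rh y| := by
          have := phi_lip j (rh x) (rh y)
          calc _ ≤ |rh x - rh y| * 1 := mul_le_mul this (by linarith) (by linarith) (abs_nonneg _)
            _ = _ := mul_one _
        have ex := e4 (rh x)
        have ey := e4 (rh y)
        by_cases hax : (2:ℝ) ^ j / 2 < rh x ∧ rh x < 4 * (2:ℝ) ^ j
        · by_cases hay : (2:ℝ) ^ j / 2 < rh y ∧ rh y < 4 * (2:ℝ) ^ j
          · rw [if_pos hax, if_pos hay]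
            simp only [TT, add_mul]
            have := abs_nonneg (rh x - rh y)
            linarith
          · rw [if_pos hax, if_neg hay]
            simp only [TT, add_mul]
            have hz := phi_eq_zero hay
            rw [hz] at e5 ⊢
            linarith
        · by_cases hay : (2:ℝ) ^ j / 2 < rh y ∧ rh y < 4 * (2:ℝ) ^ j
          · rw [if_neg hax, if_pos hay]
            simp only [TT, add_mul]
            have hz := phi_eq_zero hax
            rw [hz] at e5 ⊢
            linarith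
          · rw [if_neg hax, if_neg hay]
            simp only [TT]
            rw [phi_eq_zero hax, phi_eq_zero hay]
            simp
      have hs1 := sum_active Z (hrh x)
        (fun j => if (2:ℝ) ^ j / 2 < rh x ∧ rh x < 4 * (2:ℝ) ^ j then B else 0) hB
        (fun j hj => by simp only [if_pos hj]; exact le_rfl)
        (fun j hj => by simp only [if_neg hj]; exact le_rfl)
      have hs2 := sum_active Z (hrh y)
        (fun j => if (2:ℝ) ^ j / 2 < rh y ∧ rh y < 4 * (2:ℝ) ^ j then B else 0) hB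
        (fun j hj => by simp only [if_pos hj]; exact le_rfl)
        (fun j hj => by simp only [if_neg hj]; exact le_rfl)
      have hs3 := Finset.sum_le_sum hTle
      rw [Finset.sum_add_distrib] at hs3
      have hs4 := h1 x y
      have hs5 : 6 * B ≤ (6 + 21 / 2 * K) * d x y := by
        rw [hBdef]
        nlinarith
      linarith
    · push Not at hcase
      have hTle : ∀ j ∈ Z, TT g c rh x y j ≤
          (if (2:ℝ) ^ j / 2 < rh x ∧ rh x < 4 * (2:ℝ) ^ j then rh x else 0) +
          (if (2:ℝ) ^ j / 2 < rh y ∧ rh y < 4 * (2:ℝ) ^ j then rh y else 0) := by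
        intro j _
        obtain ⟨e0, e1⟩ := hE x y j
        have ha := phi_nonneg j (rh x)
        have hb := phi_nonneg j (rh y)
        have hab : |phi j (rh x) - phi j (rh y)| ≤ phi j (rh x) + phi j (rh y) := by
          rw [abs_le]; constructor <;> linarith
        have e3 : TT g c rh x y j ≤ phi j (rh x) + phi j (rh y) := by
          simp only [TT]
          calc _ ≤ (phi j (rh x) + phi j (rh y)) *
                ((1 + Real.exp (-(2 * cutd g c x y / (2:ℝ) ^ j))) / 2) +
                (phi j (rh x) + phi j (rh y)) *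
                ((1 - Real.exp (-(2 * cutd g c x y / (2:ℝ) ^ j))) / 2) := by
                have := mul_le_mul_of_nonneg_right hab
                  (by linarith : 0 ≤ (1 + Real.exp (-(2 * cutd g c x y / (2:ℝ) ^ j))) / 2)
                linarith
            _ = _ := by ring
        have e4 : ∀ t, 0 ≤ t → phi j t ≤
            (if (2:ℝ) ^ j / 2 < t ∧ t < 4 * (2:ℝ) ^ j then t else 0) := by
          intro t ht
          split_ifs with hact
          · exact phi_le j ht
          · exact (phi_eq_zero hact).le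
        linarith [e4 _ (hrh x), e4 _ (hrh y)]
      have hs1 := sum_active Z (hrh x)
        (fun j => if (2:ℝ) ^ j / 2 < rh x ∧ rh x < 4 * (2:ℝ) ^ j then rh x else 0) (hrh x)
        (fun j hj => by simp only [if_pos hj]; exact le_rfl)
        (fun j hj => by simp only [if_neg hj]; exact le_rfl)
      have hs2 := sum_active Z (hrh y)
        (fun j => if (2:ℝ) ^ j / 2 < rh y ∧ rh y < 4 * (2:ℝ) ^ j then rh y else 0) (hrh y)
        (fun j hj => by simp only [if_pos hj]; exact le_rfl)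
        (fun j hj => by simp only [if_neg hj]; exact le_rfl)
      have hs3 := Finset.sum_le_sum hTle
      rw [Finset.sum_add_distrib] at hs3
      have : 0 ≤ K * d x y := mul_nonneg hK hd0
      nlinarith
  · intro x y D hD hx hcut
    rw [sum_LL' g hg c rh Z x y]
    have hxpos : 0 < rh x := by linarith
    set j := Int.log 2 (rh x) with hj
    have hjZ : j ∈ Z := Finset.mem_image.mpr ⟨x, Finset.mem_univ _, rfl⟩
    have hL1 : (2:ℝ) ^ j ≤ rh x := by
      have := Int.zpow_log_le_self (R := ℝ) (b := 2) (by norm_num) hxpos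
      exact_mod_cast this
    have hL2 : rh x < 2 * (2:ℝ) ^ j := by
      have := Int.lt_zpow_succ_log_self (R := ℝ) (b := 2) (by norm_num) (rh x)
      have h3 : (2:ℝ) ^ (j + 1) = 2 * (2:ℝ) ^ j := by
        rw [zpow_add_one₀ (by norm_num : (2:ℝ) ≠ 0)]; ring
      rw [← h3]
      exact_mod_cast this
    have hq : (0:ℝ) < (2:ℝ) ^ j := by positivity
    have hphi := phi_ge hL1 hL2
    have hTnn : ∀ i ∈ Z, 0 ≤ TT g c rh x y i := by
      intro i _
      obtain ⟨e0, e1⟩ := hE x y i
      simp only [TT]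
      have ha := phi_nonneg i (rh x)
      have hb := phi_nonneg i (rh y)
      have : 0 ≤ (1 - Real.exp (-(2 * cutd g c x y / (2:ℝ) ^ i))) / 2 := by linarith
      positivity
    refine le_trans ?_ (Finset.single_le_sum hTnn hjZ)
    set q := (2:ℝ) ^ j with hqdef
    have hqD : D / 8 ≤ q := by linarith
    have e1 : Real.exp (-(2 * cutd g c x y / q)) ≤ Real.exp (-(2 * D / q)) := by
      apply Real.exp_le_exp.mpr
      have : 2 * D / q ≤ 2 * cutd g c x y / q := by gcongr
      linarith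
    -- `1 - exp(-t) ≥ t / (1 + t)`
    have e2 : Real.exp (-(2 * D / q)) ≤ 1 / (1 + 2 * D / q) := by
      rw [Real.exp_neg, one_div]
      apply inv_anti₀
      · positivity
      · have := Real.add_one_le_exp (2 * D / q)
        linarith
    have e3 : D / 34 ≤ q / 2 * ((1 - 1 / (1 + 2 * D / q)) / 2) := by
      have h3 : 1 - 1 / (1 + 2 * D / q) = 2 * D / (q + 2 * D) := by
        field_simp
        ring
      rw [h3]
      have h4 : q / 2 * (2 * D / (q + 2 * D) / 2) = q * D / (2 * (q + 2 * D)) := by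
        field_simp
        
      rw [h4, div_le_div_iff₀ (by norm_num) (by positivity)]
      nlinarith
    have hb := phi_nonneg j (rh y)
    obtain ⟨f0, f1⟩ := hE x y j
    have e4 : q / 2 * ((1 - 1 / (1 + 2 * D / q)) / 2) ≤
        (phi j (rh x) + phi j (rh y)) * ((1 - Real.exp (-(2 * cutd g c x y / q))) / 2) := by
      apply mul_le_mul
      · linarith
      · linarith
      · have : Real.exp (-(2 * D / q)) ≤ 1 / (1 + 2 * D / q) := e2
        have h5 : 1 / (1 + 2 * D / q) ≤ 1 := by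
          rw [div_le_one (by positivity)]
          have : 0 ≤ 2 * D / q := by positivity
          linarith
        linarith
      · have := phi_nonneg j (rh x)
        linarith
    have e5 : 0 ≤ |phi j (rh x) - phi j (rh y)| *
        ((1 + Real.exp (-(2 * cutd g c x y / q))) / 2) := by positivity
    simp only [TT]
    linarith

end Vale.Agent.Lib.P235
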