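import Vale.Agent.Lib.P235.Forest
import Vale.Agent.Lib.P235.Loc

/-!
# P235: elimination rounds and the distortion in `L_1`
-/

namespace Vale.Agent.Lib.P235

open SimpleGraph Finset

variable {V : Type*}

/-- the component map `x ↦ a x • e_(component of x)` -/
theorem exists_kappa [Finite V] (H : SimpleGraph V) (a : V → ℝ) (ha : ∀ x, 0 ≤ a x) :
    ∃ (N : ℕ) (κ : V → Fin N → ℝ), ∀ x y,
      (H.Reachable x y → ∑ i, |κ x i - κ y i| = |a x - a y|) ∧
      (¬ H.Reachable x y → ∑ i, |κ x i - κ y i| = a x + a y) := by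
  classical
  obtain ⟨N, ⟨e⟩⟩ := Finite.exists_equiv_fin H.ConnectedComponent
  set c : V → Fin N := fun x => e (H.connectedComponentMk x) with hc
  have hcc : ∀ x y, c x = c y ↔ H.Reachable x y := by
    intro x y
    rw [hc]
    simp only [e.injective.eq_iff]
    exact ConnectedComponent.eq
  refine ⟨N, fun x i => if i = c x then a x else 0, fun x y => ⟨?_, ?_⟩⟩
  · intro h
    have hxy := (hcc x y).mpr h
    rw [Finset.sum_eq_single (c x)]
    · dsimp only
      rw [if_pos rfl, if_pos hxy]
    · intro i _ hi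
      dsimp only
      rw [if_neg hi, if_neg (fun h' => hi (h'.trans hxy.symm))]
      simp
    · intro h'
      exact absurd (Finset.mem_univ _) h'
  · intro h
    have hxy : c x ≠ c y := fun h' => h ((hcc x y).mp h')
    have h1 : ∀ i, |(if i = c x then a x else 0) - (if i = c y then a y else 0)| =
        (if i = c x then a x else 0) + (if i = c y then a y else 0) := by
      intro i
      by_cases hi : i = c x
      · have hi' : ¬ i = c y := fun h' => hxy (hi.symm.trans h')
        rw [if_pos hi, if_neg hi', sub_zero, add_zero, abs_of_nonneg (ha x)]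
      · by_cases hi' : i = c y
        · rw [if_neg hi, if_pos hi', zero_sub, zero_add, abs_neg, abs_of_nonneg (ha y)]
        · rw [if_neg hi, if_neg hi']; simp
    rw [Finset.sum_congr rfl fun i _ => h1 i, Finset.sum_add_distrib]
    simp

theorem rho_mono [Finite V] {G : SimpleGraph V} {w : Sym2 V → ℝ} {M : ℝ} {U T : Set V}
    (hM : ∀ x y, wd G w x y ≤ M) (x : V) : rho G w M (U ∪ T) x ≤ rho G w M U x := by
  classical
  have : Nonempty V := ⟨x⟩
  apply le_ciInf
  intro u
  split_ifs with hu
  · exact rho_le_wd (Set.mem_union_left _ hu)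
  · by_cases huT : u ∈ T
    · exact (rho_le_wd (Set.mem_union_right _ huT)).trans (hM x u)
    · exact rho_le_M (u := u) (by simp [hu, huT])

/-- the numerical step of a round -/
theorem step_num {d A B A' B' S : ℝ}
    (hone : A' = A ∨ B' = B) (h : d + |A - B| ≤ A + B + 2 * S) :
    d ≤ A' + B' + |A' - B'| + 2 * S := by
  rcases hone with h1 | h1
  · have h2 : B - B' ≤ |A - B| + |A' - B'| := by
      have a1 := neg_abs_le (A - B)
      have a2 := le_abs_self (A' - B')
      linarith
    linarith
  · have h2 : A - A' ≤ |A - B| + |A' - B'| := by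
      have a1 := le_abs_self (A - B)
      have a2 := neg_abs_le (A' - B')
      linarith
    linarith

theorem keep_univ_reachable {G : SimpleGraph V} (hc : G.Connected) (x y : V) :
    (keep G Set.univ).Reachable x y := by
  obtain ⟨p⟩ := hc.preconnected x y
  obtain ⟨q, _⟩ := exists_walk_keep (w := fun _ => 0) (S := Set.univ) p (fun _ _ => Set.mem_univ _)
  exact q.reachable

/-- the map built along the elimination rounds -/
theorem elim_map [Finite V] {G : SimpleGraph V} {w : Sym2 V → ℝ}
    (hw : ∀ e ∈ G.edgeSet, 0 < w e) (hc : G.Connected) {M : ℝ} (hM0 : 0 ≤ M)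
    (hM : ∀ x y, wd G w x y ≤ M) {k : ℕ} {S : Set V} (h : Elim G k S) :
    ∃ (J : Type) (_ : Fintype J) (Ψ : V → J → ℝ),
      (∀ x y, ∑ j, |Ψ x j - Ψ y j| ≤ k * wd G w x y) ∧
      (∀ x y, (keep G S).Reachable x y →
        wd G w x y + |min (rho G w M Sᶜ x) (wd G w x y / 2) - min (rho G w M Sᶜ y) (wd G w x y / 2)| ≤
          min (rho G w M Sᶜ x) (wd G w x y / 2) + min (rho G w M Sᶜ y) (wd G w x y / 2) +
            2 * ∑ j, |Ψ x j - Ψ y j|) ∧
      ∀ x y, ¬ (keep G S).Reachable x y → wd G w x y ≤ 2 * ∑ j, |Ψ x j - Ψ y j| := by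
  induction h with
  | start =>
    refine ⟨Empty, inferInstance, fun _ => Empty.elim, ?_, ?_, ?_⟩
    · intro x y; simp
    · intro x y _
      have : Nonempty V := ⟨x⟩
      have h0 := wd_nonneg hw x y
      have h1 := hM x y
      simp only [Set.compl_univ, rho_empty]
      rw [min_eq_right (by linarith)]
      simp
    · intro x y hcon
      exact absurd (keep_univ_reachable hc x y) hcon
  | @round k S h T hT hone ih =>
    obtain ⟨J, _, Ψ, I1, I2, I3⟩ := ih
    have hcomp : (S \ T)ᶜ = Sᶜ ∪ T := by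
      ext z
      simp only [Set.mem_compl_iff, Set.mem_sdiff, Set.mem_union]
      tauto
    set ρ := rho G w M Sᶜ with hρ
    set ρ' := rho G w M (Sᶜ ∪ T) with hρ'
    obtain ⟨N, κ, hκ⟩ := exists_kappa (keep G (S \ T)) ρ' (fun x => rho_nonneg hw hM0 x)
    have hmono : ∀ x y, (keep G (S \ T)).Reachable x y → (keep G S).Reachable x y := by
      intro x y hxy
      apply hxy.mono
      intro a b hab
      exact ⟨hab.1, hab.2.1.1, hab.2.2.1⟩
    have hkeep : keep G (Sᶜ ∪ T)ᶜ = keep G (S \ T) := by
      rw [← hcomp, compl_compl]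
    -- the key inequality for joined pairs
    have key : ∀ x y, (keep G S).Reachable x y →
        wd G w x y ≤ min (ρ' x) (wd G w x y / 2) + min (ρ' y) (wd G w x y / 2) +
          |min (ρ' x) (wd G w x y / 2) - min (ρ' y) (wd G w x y / 2)| +
            2 * ∑ j, |Ψ x j - Ψ y j| := by
      intro x y hxy
      have hle : ∀ z, ρ' z ≤ ρ z := fun z => rho_mono hM z
      refine step_num ?_ (I2 x y hxy)
      by_contra hcon
      push Not at hcon
      obtain ⟨hx, hy⟩ := hcon
      have hx1 : min (ρ' x) (wd G w x y / 2) < min (ρ x) (wd G w x y / 2) :=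
        lt_of_le_of_ne (min_le_min_right _ (hle x)) hx
      have hy1 : min (ρ' y) (wd G w x y / 2) < min (ρ y) (wd G w x y / 2) :=
        lt_of_le_of_ne (min_le_min_right _ (hle y)) hy
      have aux : ∀ {p q t : ℝ}, min p t < min q t → p < q ∧ p < t := by
        intro p q t hpq
        rcases le_total p t with h1 | h1
        · rw [min_eq_left h1] at hpq
          exact ⟨hpq.trans_le (min_le_left _ _), hpq.trans_le (min_le_right _ _)⟩
        · rw [min_eq_right h1] at hpq
          exact absurd (min_le_right q t) (not_le.mpr hpq)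
      obtain ⟨hx2, hx3⟩ := aux hx1
      obtain ⟨hy2, hy3⟩ := aux hy1
      have hkS : keep G Sᶜᶜ = keep G S := by rw [compl_compl]
      exact one_drops (U := Sᶜ) (T := T) hw hc (by rw [hkS]; exact hone) (by rw [hkS]; exact hxy)
        (le_refl (wd G w x y)) hx2 hx3 hy2 hy3
    refine ⟨J ⊕ Fin N, inferInstance, fun x => Sum.elim (Ψ x) (κ x), ?_, ?_, ?_⟩
    all_goals simp only [Fintype.sum_sum_type, Sum.elim_inl, Sum.elim_inr]
    · intro x y
      have h1 := I1 x y
      have h2 : ∑ i, |κ x i - κ y i| ≤ wd G w x y := by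
        by_cases hxy : (keep G (S \ T)).Reachable x y
        · rw [(hκ x y).1 hxy]
          exact rho_lip hw hc x y
        · rw [(hκ x y).2 hxy]
          apply rho_add_le hw hc
          rw [hkeep]
          exact hxy
      push_cast
      linarith
    · intro x y hxy
      rw [hcomp, (hκ x y).1 hxy]
      have h1 := key x y (hmono x y hxy)
      have h2 : |min (ρ' x) (wd G w x y / 2) - min (ρ' y) (wd G w x y / 2)| ≤ |ρ' x - ρ' y| := by
        have := abs_min_sub_min_le_max (ρ' x) (wd G w x y / 2) (ρ' y) (wd G w x y / 2)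
        rw [sub_self, abs_zero] at this
        exact this.trans (max_le le_rfl (abs_nonneg _))
      linarith
    · intro x y hxy
      rw [(hκ x y).2 hxy]
      by_cases hS : (keep G S).Reachable x y
      · have h1 := key x y hS
        have hx0 : 0 ≤ ρ' x := rho_nonneg hw hM0 x
        have hy0 : 0 ≤ ρ' y := rho_nonneg hw hM0 y
        have hd0 := wd_nonneg hw x y
        have a1 : 0 ≤ min (ρ' x) (wd G w x y / 2) := le_min hx0 (by linarith)
        have a2 : 0 ≤ min (ρ' y) (wd G w x y / 2) := le_min hy0 (by linarith)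
        have a3 := min_le_left (ρ' x) (wd G w x y / 2)
        have a4 := min_le_left (ρ' y) (wd G w x y / 2)
        have a5 : |min (ρ' x) (wd G w x y / 2) - min (ρ' y) (wd G w x y / 2)| ≤
            min (ρ' x) (wd G w x y / 2) + min (ρ' y) (wd G w x y / 2) := by
          rw [abs_le]; constructor <;> linarith
        linarith
      · have h1 := I3 x y hS
        have hx0 : 0 ≤ ρ' x := rho_nonneg hw hM0 x
        have hy0 : 0 ≤ ρ' y := rho_nonneg hw hM0 y
        linarith

/-- **Main theorem.** -/
theorem main_bound [Fintype V] {G : SimpleGraph V} (hc : G.Connected) {k : ℕ} {S : Set V}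
    (h : Elim G k S) {K : ℝ} (hK : 1 ≤ K) (hL : L1Bound (keep G S) K) :
    L1Bound G (600 * (K + k)) := by
  classical
  intro w hw
  set M := ∑ x, ∑ y, wd G w x y with hMdef
  have hM0 : 0 ≤ M := Finset.sum_nonneg fun x _ => Finset.sum_nonneg fun y _ => wd_nonneg hw x y
  have hM : ∀ x y, wd G w x y ≤ M := by
    intro x y
    calc wd G w x y ≤ ∑ y, wd G w x y :=
          Finset.single_le_sum (fun y _ => wd_nonneg hw x y) (Finset.mem_univ y)
      _ ≤ M := Finset.single_le_sum (f := fun x => ∑ y, wd G w x y)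
          (fun x _ => Finset.sum_nonneg fun y _ => wd_nonneg hw x y) (Finset.mem_univ x)
  obtain ⟨J, _, Ψ, I1, I2, I3⟩ := elim_map hw hc hM0 hM h
  obtain ⟨N, f, hf⟩ := hL w (keep_edge hw S)
  obtain ⟨I, _, g, c, hg, hcut⟩ := exists_cuts f
  set ρ := rho G w M Sᶜ with hρ
  have hρ0 : ∀ x, 0 ≤ ρ x := fun x => rho_nonneg hw hM0 x
  have hkS : keep G Sᶜᶜ = keep G S := by rw [compl_compl]
  obtain ⟨J', _, L, L1, L2⟩ := exists_loc g hg c ρ hρ0 (wd G w) (K := K) (by linarith)
    (fun x y => rho_lip hw hc x y) (by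
      intro x y hxy
      obtain ⟨hr, hle⟩ := wd_keep_le (U := Sᶜ) hw hc hxy
      rw [hkS] at hr hle
      rw [← hcut]
      exact (hf x y hr).2.trans (mul_le_mul_of_nonneg_left hle (by linarith)))
  -- the sum map
  have hup : ∀ x y, ∑ j, |Ψ x j - Ψ y j| + ∑ j, |L x j - L y j| ≤
      (k + 6 + 21 / 2 * K) * wd G w x y := by
    intro x y
    have := I1 x y
    have := L1 x y
    linarith
  have hlow : ∀ x y, wd G w x y / 34 ≤ ∑ j, |Ψ x j - Ψ y j| + ∑ j, |L x j - L y j| := by
    intro x y
    have hd0 := wd_nonneg hw x y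
    have hP : 0 ≤ ∑ j, |Ψ x j - Ψ y j| := Finset.sum_nonneg fun _ _ => abs_nonneg _
    have hQ : 0 ≤ ∑ j, |L x j - L y j| := Finset.sum_nonneg fun _ _ => abs_nonneg _
    by_cases hxy : (keep G S).Reachable x y
    · have h1 := I2 x y hxy
      have h2 := abs_nonneg (min (ρ x) (wd G w x y / 2) - min (ρ y) (wd G w x y / 2))
      rcases hd0.eq_or_lt with h0 | hdpos
      · rw [← h0]; linarith
      by_cases hbig : min (ρ x) (wd G w x y / 2) + min (ρ y) (wd G w x y / 2) ≤ wd G w x y / 2
      · linarith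
      · push Not at hbig
        have hcutd : wd G w x y ≤ cutd g c x y := by
          rw [← hcut]
          exact (wd_le_wd_keep hw hxy).trans (hf x y hxy).1
        have m1 := min_le_left (ρ x) (wd G w x y / 2)
        have m2 := min_le_left (ρ y) (wd G w x y / 2)
        rcases le_total (wd G w x y / 4) (ρ x) with hx | hx
        · have := L2 x y (wd G w x y) hdpos hx hcutd
          linarith
        · have hy : wd G w x y / 4 ≤ ρ y := by linarith
          have h3 := L2 y x (wd G w x y) hdpos hy (by rw [cutd_comm]; exact hcutd)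
          have h4 : ∑ j, |L y j - L x j| = ∑ j, |L x j - L y j| :=
            Finset.sum_congr rfl fun j _ => abs_sub_comm _ _
          rw [h4] at h3
          linarith
    · have := I3 x y hxy
      linarith
  let e := Fintype.equivFin (J ⊕ J')
  refine ⟨Fintype.card (J ⊕ J'), fun x i => 34 * Sum.elim (Ψ x) (L x) (e.symm i), ?_⟩
  intro x y _
  have hsum : ∑ i, |34 * Sum.elim (Ψ x) (L x) (e.symm i) - 34 * Sum.elim (Ψ y) (L y) (e.symm i)| =
      34 * (∑ j, |Ψ x j - Ψ y j| + ∑ j, |L x j - L y j|) := by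
    rw [Equiv.sum_comp e.symm
      (fun i => |34 * Sum.elim (Ψ x) (L x) i - 34 * Sum.elim (Ψ y) (L y) i|)]
    have : ∀ i : J ⊕ J', |34 * Sum.elim (Ψ x) (L x) i - 34 * Sum.elim (Ψ y) (L y) i| =
        34 * |Sum.elim (Ψ x) (L x) i - Sum.elim (Ψ y) (L y) i| := by
      intro i
      rw [← mul_sub, abs_mul]
      norm_num
    rw [Finset.sum_congr rfl fun i _ => this i, ← Finset.mul_sum, Fintype.sum_sum_type]
    simp only [Sum.elim_inl, Sum.elim_inr]
  rw [hsum]
  constructor
  · linarith [hlow x y]
  · have h1 := hup x y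
    have hd0 := wd_nonneg hw x y
    have hk0 : (0:ℝ) ≤ k := Nat.cast_nonneg k
    have h2 : 34 * ((k + 6 + 21 / 2 * K) * wd G w x y) ≤ 600 * (K + k) * wd G w x y := by
      have : 34 * (k + 6 + 21 / 2 * K) ≤ 600 * (K + k) := by nlinarith
      calc 34 * ((k + 6 + 21 / 2 * K) * wd G w x y) = (34 * (k + 6 + 21 / 2 * K)) * wd G w x y := by
            ring
        _ ≤ _ := mul_le_mul_of_nonneg_right this hd0
    linarith

end Vale.Agent.Lib.P235
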